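import Mathlib

/-!
# SP-KER: two-variable kernel inequalities of the (SP_0) line, abstract form

`t' = exp u`, `u' = nu > 0` antitone.  For `a ≠ b`
`sig a b = ((t b - t a) / (b - a)) ^ 2 / (exp (u a) * exp (u b)) - 1`.
-/

namespace Vale.Agent.P254.H807

open Set Real

/-- the slack function -/
noncomputable def sg (t u : ℝ → ℝ) (a b : ℝ) : ℝ :=
  ((t b - t a) / (b - a)) ^ 2 / (Real.exp (u a) * Real.exp (u b)) - 1

theorem sg_comm (t u : ℝ → ℝ) (a b : ℝ) : sg t u a b = sg t u b a := by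
  have h1 : (t b - t a) / (b - a) = (t a - t b) / (a - b) := by
    rw [← neg_sub (t a) (t b), ← neg_sub a b, neg_div_neg_eq]
  unfold sg
  rw [h1, mul_comm (Real.exp (u a))]

theorem sinh_ge {x : ℝ} (hx : 0 ≤ x) : x + x ^ 3 / 6 ≤ Real.sinh x := by
  have hc : ∀ y : ℝ, 1 + y ^ 2 / 2 ≤ Real.cosh y := by
    intro y
    have h1 : Real.cosh y = 1 + 2 * Real.sinh (y / 2) ^ 2 := by
      have h2 := Real.cosh_two_mul (y / 2)
      have h3 := Real.cosh_sq (y / 2)
      have h4 : 2 * (y / 2) = y := by ring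
      rw [h4] at h2
      rw [h2, h3]; ring
    have h5 : (y / 2) ^ 2 ≤ Real.sinh (y / 2) ^ 2 := by
      rw [sq_le_sq]
      rcases le_total 0 (y / 2) with h | h
      · have h6 : y / 2 ≤ Real.sinh (y / 2) := Real.self_le_sinh_iff.2 h
        rw [abs_of_nonneg h, abs_of_nonneg (h.trans h6)]
        exact h6
      · have h6 : Real.sinh (y / 2) ≤ y / 2 := Real.sinh_le_self_iff.2 h
        rw [abs_of_nonpos h, abs_of_nonpos (h6.trans h)]
        linarith
    rw [h1]; nlinarith [h5]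
  have hmono : MonotoneOn (fun y : ℝ => Real.sinh y - (y + y ^ 3 / 6)) (Ici 0) := by
    apply monotoneOn_of_deriv_nonneg (convex_Ici 0)
    · fun_prop
    · fun_prop
    · intro y _
      have hd : HasDerivAt (fun y : ℝ => Real.sinh y - (y + y ^ 3 / 6))
          (Real.cosh y - (1 + (3 : ℕ) * y ^ 2 / 6)) y := by
        have h1 := Real.hasDerivAt_sinh y
        have h2 : HasDerivAt (fun y : ℝ => y ^ 3 / 6) ((3 : ℕ) * y ^ 2 / 6) y := by
          simpa using (hasDerivAt_pow 3 y).div_const 6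
        exact h1.sub ((hasDerivAt_id y).add h2)
      rw [hd.deriv]
      have := hc y
      push_cast
      linarith
  have h := hmono (mem_Ici.2 (le_refl (0:ℝ))) (mem_Ici.2 hx) hx
  simp at h
  linarith

section

variable {t u U nu : ℝ → ℝ}

/-- a function whose derivative is at least the derivative of `F` on `[a, b]` -/
theorem sub_le_of_deriv {F H F' H' : ℝ → ℝ} {a b : ℝ} (hab : a ≤ b)
    (hF : ∀ x, HasDerivAt F (F' x) x) (hH : ∀ x, HasDerivAt H (H' x) x)
    (hle : ∀ x, a ≤ x → x ≤ b → F' x ≤ H' x) : F b - F a ≤ H b - H a := by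
  have hm : MonotoneOn (fun x => H x - F x) (Icc a b) := by
    apply monotoneOn_of_deriv_nonneg (convex_Icc a b)
    · exact fun x _ => ((hH x).sub (hF x)).continuousAt.continuousWithinAt
    · exact fun x _ => ((hH x).sub (hF x)).differentiableAt.differentiableWithinAt
    · intro x hx
      rw [interior_Icc] at hx
      have hd : HasDerivAt (fun x => H x - F x) (H' x - F' x) x := (hH x).sub (hF x)
      rw [hd.deriv]
      have := hle x hx.1.le hx.2.le
      linarith
  have h := hm (left_mem_Icc.2 hab) (right_mem_Icc.2 hab) hab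
  simp only at h
  linarith

/-- the chord lies below a concave function -/
theorem chord_le (hu : ConcaveOn ℝ univ u) {a b x : ℝ} (hab : a < b) (hax : a ≤ x)
    (hxb : x ≤ b) : u a + (u b - u a) / (b - a) * (x - a) ≤ u x := by
  have hδ : 0 < b - a := sub_pos.2 hab
  have h := hu.2 (mem_univ a) (mem_univ b) (show 0 ≤ (b - x) / (b - a) by
    apply div_nonneg <;> linarith) (show 0 ≤ (x - a) / (b - a) by
    apply div_nonneg <;> linarith) (by field_simp; ring)
  simp only [smul_eq_mul] at h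
  have h1 : (b - x) / (b - a) * a + (x - a) / (b - a) * b = x := by
    field_simp; ring
  rw [h1] at h
  have h2 : (b - x) / (b - a) * u a + (x - a) / (b - a) * u b
      = u a + (u b - u a) / (b - a) * (x - a) := by
    field_simp; ring
  rw [h2] at h
  exact h

/-- trapezoid rule for a concave function -/
theorem trap_le (hu : ConcaveOn ℝ univ u) (hU : ∀ x, HasDerivAt U (u x) x) {a b : ℝ}
    (hab : a < b) : (b - a) * ((u a + u b) / 2) ≤ U b - U a := by
  have hδ : 0 < b - a := sub_pos.2 hab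
  set k := (u b - u a) / (b - a) with hk
  have hF : ∀ x, HasDerivAt (fun x => u a * x + k * ((x - a) ^ 2 / 2)) (u a + k * (x - a)) x := by
    intro x
    have h1 : HasDerivAt (fun x : ℝ => u a * x) (u a * 1) x := (hasDerivAt_id x).const_mul _
    have h2 : HasDerivAt (fun x : ℝ => (x - a) ^ 2 / 2) ((x - a)) x := by
      have h3 : HasDerivAt (fun x : ℝ => (x - a)) 1 x := (hasDerivAt_id x).sub_const a
      exact ((h3.fun_pow 2).div_const 2).congr_deriv (by push_cast; ring)
    exact (h1.fun_add (h2.const_mul k)).congr_deriv (by ring)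
  have h := sub_le_of_deriv hab.le hF hU (fun x hax hxb => chord_le hu hab hax hxb)
  have h2 : k * (b - a) = u b - u a := by rw [hk]; field_simp
  have h6 : k * ((b - a) ^ 2 / 2) = (u b - u a) * (b - a) / 2 := by
    have : k * ((b - a) ^ 2 / 2) = (k * (b - a)) * (b - a) / 2 := by ring
    rw [this, h2]
  have h7 : k * ((a - a) ^ 2 / 2) = 0 := by rw [sub_self]; ring
  rw [h6, h7] at h
  nlinarith [h]

/-- Jensen: the mean of `exp u` is at least `exp` of the mean -/
theorem jensen_le (ht : ∀ x, HasDerivAt t (Real.exp (u x)) x) (hU : ∀ x, HasDerivAt U (u x) x)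
    {a b : ℝ} (hab : a < b) :
    (b - a) * Real.exp ((U b - U a) / (b - a)) ≤ t b - t a := by
  have hδ : 0 < b - a := sub_pos.2 hab
  set m := (U b - U a) / (b - a) with hm
  have hF : ∀ x, HasDerivAt (fun x => Real.exp m * ((1 - m) * x + U x))
      (Real.exp m * ((1 - m) + u x)) x := by
    intro x
    have h1 : HasDerivAt (fun x : ℝ => (1 - m) * x) ((1 - m) * 1) x :=
      (hasDerivAt_id x).const_mul _
    exact ((h1.fun_add (hU x)).const_mul (Real.exp m)).congr_deriv (by ring)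
  have h := sub_le_of_deriv hab.le hF ht (fun x _ _ => by
    have h3 : (u x - m) + 1 ≤ Real.exp (u x - m) := Real.add_one_le_exp _
    have h4 : Real.exp (u x) = Real.exp m * Real.exp (u x - m) := by
      rw [← Real.exp_add]; congr 1; ring
    rw [h4]
    apply mul_le_mul_of_nonneg_left _ (Real.exp_pos m).le
    linarith)
  have h5 : m * (b - a) = U b - U a := by rw [hm]; field_simp
  have h6 : Real.exp m * ((1 - m) * b + U b) - Real.exp m * ((1 - m) * a + U a)
      = (b - a) * Real.exp m := by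
    have : (1 - m) * b + U b - ((1 - m) * a + U a) = b - a := by linarith
    rw [← mul_sub, this]; ring
  linarith

/-- logarithmic mean bound with the bulge term -/
theorem logmean_le (ht : ∀ x, HasDerivAt t (Real.exp (u x)) x) (hU : ∀ x, HasDerivAt U (u x) x)
    (hu : ConcaveOn ℝ univ u) {a b : ℝ} (hab : a < b) (hd : u a < u b) :
    (b - a) / (u b - u a) * (Real.exp (u b) - Real.exp (u a))
      + Real.exp (u a) * ((U b - U a) - (b - a) * ((u a + u b) / 2)) ≤ t b - t a := by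
  have hδ : 0 < b - a := sub_pos.2 hab
  have hdd : 0 < u b - u a := sub_pos.2 hd
  set k := (u b - u a) / (b - a) with hk
  have hk0 : 0 < k := div_pos hdd hδ
  have hF : ∀ x, HasDerivAt (fun x => (1 / k) * Real.exp (u a + k * (x - a))
      + Real.exp (u a) * (U x - (u a * x + k * ((x - a) ^ 2 / 2))))
      (Real.exp (u a + k * (x - a)) + Real.exp (u a) * (u x - (u a + k * (x - a)))) x := by
    intro x
    have h1 : HasDerivAt (fun x : ℝ => u a * x) (u a * 1) x := (hasDerivAt_id x).const_mul _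
    have h3 : HasDerivAt (fun x : ℝ => (x - a)) 1 x := (hasDerivAt_id x).sub_const a
    have h2 : HasDerivAt (fun x : ℝ => (x - a) ^ 2 / 2) ((x - a)) x := by
      exact ((h3.fun_pow 2).div_const 2).congr_deriv (by push_cast; ring)
    have h5 := h1.fun_add (h2.const_mul k)
    have h6 := ((hU x).fun_sub h5).const_mul (Real.exp (u a))
    have h7 : HasDerivAt (fun x : ℝ => u a + k * (x - a)) (k * 1) x :=
      (h3.const_mul k).const_add (u a)
    have h8 := (h7.exp).const_mul (1 / k)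
    refine (h8.fun_add h6).congr_deriv ?_
    have : 1 / k * (Real.exp (u a + k * (x - a)) * (k * 1)) = Real.exp (u a + k * (x - a)) := by
      field_simp
    rw [this]; ring
  have h := sub_le_of_deriv hab.le hF ht (fun x hax hxb => by
    have hc := chord_le hu hab hax hxb
    have h3 : (u x - (u a + k * (x - a))) + 1 ≤ Real.exp (u x - (u a + k * (x - a))) :=
      Real.add_one_le_exp _
    have h4 : Real.exp (u x) = Real.exp (u a + k * (x - a))
        * Real.exp (u x - (u a + k * (x - a))) := by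
      rw [← Real.exp_add]; congr 1; ring
    have h5 : Real.exp (u a) ≤ Real.exp (u a + k * (x - a)) := by
      apply Real.exp_le_exp.2
      have : 0 ≤ k * (x - a) := mul_nonneg hk0.le (by linarith)
      linarith
    have h6 : 0 ≤ u x - (u a + k * (x - a)) := by
      have := hc
      linarith
    have h7 : Real.exp (u a) * (u x - (u a + k * (x - a)))
        ≤ Real.exp (u a + k * (x - a)) * (u x - (u a + k * (x - a))) :=
      mul_le_mul_of_nonneg_right h5 h6
    have h8 : Real.exp (u a + k * (x - a)) * ((u x - (u a + k * (x - a))) + 1)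
        ≤ Real.exp (u a + k * (x - a)) * Real.exp (u x - (u a + k * (x - a))) :=
      mul_le_mul_of_nonneg_left h3 (Real.exp_pos _).le
    rw [h4]
    linarith)
  have h2 : k * (b - a) = u b - u a := by rw [hk]; field_simp
  have h3 : 1 / k = (b - a) / (u b - u a) := by rw [hk, one_div_div]
  simp only [sub_self, mul_zero, add_zero] at h
  rw [h2, h3] at h
  have h4 : u a + (u b - u a) = u b := by ring
  rw [h4] at h
  have h5 : (0 : ℝ) ^ 2 / 2 = 0 := by norm_num
  rw [h5] at h
  have h6 : k * ((b - a) ^ 2 / 2) = (u b - u a) * (b - a) / 2 := by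
    have : k * ((b - a) ^ 2 / 2) = (k * (b - a)) * (b - a) / 2 := by ring
    rw [this, h2]
  rw [h6] at h
  nlinarith [h]


/-- the bulge `B = mean u - (u a + u b) / 2` -/
noncomputable def bulge (u U : ℝ → ℝ) (a b : ℝ) : ℝ :=
  (U b - U a) / (b - a) - (u a + u b) / 2

theorem bulge_nonneg (hu : ConcaveOn ℝ univ u) (hU : ∀ x, HasDerivAt U (u x) x) {a b : ℝ}
    (hab : a < b) : 0 ≤ bulge u U a b := by
  have hδ : 0 < b - a := sub_pos.2 hab
  have h := trap_le hu hU hab
  unfold bulge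
  rw [sub_nonneg, le_div_iff₀ hδ]
  linarith

theorem bulge_mul (u U : ℝ → ℝ) {a b : ℝ} (hab : a < b) :
    (b - a) * bulge u U a b = (U b - U a) - (b - a) * ((u a + u b) / 2) := by
  have hδ : 0 < b - a := sub_pos.2 hab
  unfold bulge
  field_simp

/-- `sig + 1` from a lower bound of the mean -/
theorem sg_ge_of_mean {a b y : ℝ} (hab : a < b) (hy : 0 ≤ y)
    (h : (b - a) * (Real.exp ((u a + u b) / 2) * y) ≤ t b - t a) :
    y ^ 2 - 1 ≤ sg t u a b := by
  have hδ : 0 < b - a := sub_pos.2 hab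
  have h1 : Real.exp ((u a + u b) / 2) * y ≤ (t b - t a) / (b - a) := by
    rw [le_div_iff₀ hδ]; linarith
  have h2 : 0 ≤ Real.exp ((u a + u b) / 2) * y := mul_nonneg (Real.exp_pos _).le hy
  have h3 : (Real.exp ((u a + u b) / 2) * y) ^ 2 ≤ ((t b - t a) / (b - a)) ^ 2 :=
    pow_le_pow_left₀ h2 h1 2
  have h4 : Real.exp (u a) * Real.exp (u b) = Real.exp ((u a + u b) / 2) ^ 2 := by
    rw [← Real.exp_add, ← Real.exp_nat_mul]; congr 1; push_cast; ring
  unfold sg
  rw [h4]
  have h5 : 0 < Real.exp ((u a + u b) / 2) ^ 2 := by positivity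
  have h6 : y ^ 2 ≤ ((t b - t a) / (b - a)) ^ 2 / Real.exp ((u a + u b) / 2) ^ 2 := by
    rw [le_div_iff₀ h5]
    calc y ^ 2 * Real.exp ((u a + u b) / 2) ^ 2 = (Real.exp ((u a + u b) / 2) * y) ^ 2 := by ring
      _ ≤ _ := h3
  linarith

/-- Jensen form -/
theorem sg_ge_exp (ht : ∀ x, HasDerivAt t (Real.exp (u x)) x)
    (hU : ∀ x, HasDerivAt U (u x) x) {a b : ℝ} (hab : a < b) :
    Real.exp (2 * bulge u U a b) - 1 ≤ sg t u a b := by
  have h := jensen_le ht hU hab
  have h1 : Real.exp ((U b - U a) / (b - a))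
      = Real.exp ((u a + u b) / 2) * Real.exp (bulge u U a b) := by
    rw [← Real.exp_add]; congr 1; unfold bulge; ring
  rw [h1] at h
  have h2 := sg_ge_of_mean hab (Real.exp_pos (bulge u U a b)).le h
  have h3 : Real.exp (2 * bulge u U a b) = Real.exp (bulge u U a b) ^ 2 := by
    rw [← Real.exp_nat_mul]; norm_num
  rw [h3]; exact h2

theorem sg_ge_B (ht : ∀ x, HasDerivAt t (Real.exp (u x)) x)
    (hU : ∀ x, HasDerivAt U (u x) x) (hu : ConcaveOn ℝ univ u) {a b : ℝ} (hab : a < b) :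
    2 * bulge u U a b + 2 * bulge u U a b ^ 2 ≤ sg t u a b := by
  have hB := bulge_nonneg hu hU hab
  have h1 := sg_ge_exp ht hU hab
  have h2 := Real.quadratic_le_exp_of_nonneg (x := 2 * bulge u U a b) (by linarith)
  nlinarith [h1, h2]

/-- joint form -/
theorem sg_ge_joint (ht : ∀ x, HasDerivAt t (Real.exp (u x)) x)
    (hU : ∀ x, HasDerivAt U (u x) x) (hu : ConcaveOn ℝ univ u) {a b : ℝ} (hab : a < b)
    (hd : u a < u b) :
    (1 + (u b - u a) ^ 2 / 24 + Real.exp (-((u b - u a) / 2)) * bulge u U a b) ^ 2 - 1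
      ≤ sg t u a b := by
  have hδ : 0 < b - a := sub_pos.2 hab
  have hdd : 0 < u b - u a := sub_pos.2 hd
  have hB := bulge_nonneg hu hU hab
  have h := logmean_le ht hU hu hab hd
  rw [← bulge_mul u U hab] at h
  have hy : 0 ≤ 1 + (u b - u a) ^ 2 / 24
      + Real.exp (-((u b - u a) / 2)) * bulge u U a b := by positivity
  apply sg_ge_of_mean hab hy
  refine le_trans ?_ h
  have h1 : Real.exp (u b) - Real.exp (u a)
      = Real.exp ((u a + u b) / 2) * (2 * Real.sinh ((u b - u a) / 2)) := by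
    rw [Real.sinh_eq]
    have e1 : Real.exp (u b) = Real.exp ((u a + u b) / 2) * Real.exp ((u b - u a) / 2) := by
      rw [← Real.exp_add]; congr 1; ring
    have e2 : Real.exp (u a) = Real.exp ((u a + u b) / 2) * Real.exp (-((u b - u a) / 2)) := by
      rw [← Real.exp_add]; congr 1; ring
    rw [e1, e2]; ring
  have h2 : Real.exp (u a)
      = Real.exp ((u a + u b) / 2) * Real.exp (-((u b - u a) / 2)) := by
    rw [← Real.exp_add]; congr 1; ring
  rw [h1, h2]
  have h3 := sinh_ge (x := (u b - u a) / 2) (by linarith)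
  have h4 : 1 + (u b - u a) ^ 2 / 24
      ≤ (2 * Real.sinh ((u b - u a) / 2)) / (u b - u a) := by
    rw [le_div_iff₀ hdd]
    nlinarith [h3]
  have h5 : (b - a) / (u b - u a) * (Real.exp ((u a + u b) / 2)
        * (2 * Real.sinh ((u b - u a) / 2)))
      = (b - a) * (Real.exp ((u a + u b) / 2)
        * ((2 * Real.sinh ((u b - u a) / 2)) / (u b - u a))) := by
    field_simp
  rw [h5]
  have h6 : 0 < (b - a) * Real.exp ((u a + u b) / 2) := by positivity
  have h7 := mul_le_mul_of_nonneg_left h4 h6.le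
  nlinarith [h7]

/-- `(log lm b - log lm a) ^ 2 / 12 ≤ sig a b` -/
theorem sg_ge_d (ht : ∀ x, HasDerivAt t (Real.exp (u x)) x)
    (hU : ∀ x, HasDerivAt U (u x) x) (hu : ConcaveOn ℝ univ u) {a b : ℝ} (hab : a < b)
    (hd : u a < u b) :
    (u b - u a) ^ 2 / 12 + (u b - u a) ^ 4 / 576 ≤ sg t u a b := by
  have hB := bulge_nonneg hu hU hab
  have h := sg_ge_joint ht hU hu hab hd
  have h1 : 0 ≤ Real.exp (-((u b - u a) / 2)) * bulge u U a b := by positivity
  have h2 : (1 + (u b - u a) ^ 2 / 24) ^ 2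
      ≤ (1 + (u b - u a) ^ 2 / 24 + Real.exp (-((u b - u a) / 2)) * bulge u U a b) ^ 2 := by
    apply pow_le_pow_left₀ (by positivity)
    linarith
  nlinarith [h, h2]

/-- `d ^ 2 / 4 + B ^ 2 ≤ 3 sig` -/
theorem dB_le (ht : ∀ x, HasDerivAt t (Real.exp (u x)) x)
    (hU : ∀ x, HasDerivAt U (u x) x) (hu : ConcaveOn ℝ univ u) {a b : ℝ} (hab : a < b)
    (hd : u a < u b) :
    (u b - u a) ^ 2 / 4 + bulge u U a b ^ 2 ≤ 3 * sg t u a b := by
  have hB := bulge_nonneg hu hU hab
  have h1 := sg_ge_d ht hU hu hab hd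
  have h2 := sg_ge_B ht hU hu hab
  by_contra hcon
  push Not at hcon
  have h3 : 6 * bulge u U a b < (u b - u a) ^ 2 / 4 := by nlinarith [h2, hcon, sq_nonneg (bulge u U a b)]
  have h4 : (u b - u a) ^ 4 / 192 < bulge u U a b ^ 2 := by nlinarith [h1, hcon]
  have h5 : bulge u U a b < (u b - u a) ^ 2 / 24 := by linarith
  have h6 : bulge u U a b ^ 2 < ((u b - u a) ^ 2 / 24) ^ 2 := pow_lt_pow_left₀ h5 hB (by norm_num)
  nlinarith [h4, h6, sq_nonneg ((u b - u a) ^ 2)]

/-- one-variable control transfers to the pair -/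
theorem abs_sub_le_of_deriv {f ρ nu : ℝ → ℝ} {c : ℝ} (hf : ∀ x, HasDerivAt f (ρ x) x)
    (hu : ∀ x, HasDerivAt u (nu x) x) (hc : ∀ x, |ρ x| ≤ c * nu x) {x y : ℝ} (hxy : x ≤ y) :
    |f y - f x| ≤ c * (u y - u x) := by
  have hU : ∀ z, HasDerivAt (fun z => c * u z) (c * nu z) z := fun z => (hu z).const_mul c
  have h1 := sub_le_of_deriv hxy hf hU (fun z _ _ => (le_abs_self _).trans (hc z))
  have hf' : ∀ z, HasDerivAt (fun z => - f z) (- ρ z) z := fun z => (hf z).fun_neg
  have h2 := sub_le_of_deriv hxy hf' hU (fun z _ _ => (neg_le_abs _).trans (hc z))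
  rw [abs_le]
  constructor <;> linarith

/-- the kernel seen from the left end -/
theorem ker_left {f f1 : ℝ → ℝ} {c : ℝ} (hf : ∀ x, HasDerivAt f (f1 x) x)
    (hc : ∀ x y, x ≤ y → |f1 y - f1 x| ≤ c * (u y - u x))
    (hU : ∀ x, HasDerivAt U (u x) x) {a b : ℝ} (hab : a < b) :
    |(f b - f a) / (b - a) - f1 a| ≤ c * ((u b - u a) / 2 + bulge u U a b) := by
  have hδ : 0 < b - a := sub_pos.2 hab
  have hH : ∀ x, HasDerivAt (fun x => c * (U x - u a * x)) (c * (u x - u a)) x := by
    intro x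
    have h1 : HasDerivAt (fun x : ℝ => u a * x) (u a * 1) x := (hasDerivAt_id x).const_mul _
    exact (((hU x).fun_sub h1).const_mul c).congr_deriv (by ring)
  have hF : ∀ x, HasDerivAt (fun x => f x - f1 a * x) (f1 x - f1 a) x := by
    intro x
    have h1 : HasDerivAt (fun x : ℝ => f1 a * x) (f1 a * 1) x := (hasDerivAt_id x).const_mul _
    exact ((hf x).fun_sub h1).congr_deriv (by ring)
  have hF' : ∀ x, HasDerivAt (fun x => -(f x - f1 a * x)) (-(f1 x - f1 a)) x :=
    fun x => (hF x).fun_neg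
  have h1 := sub_le_of_deriv hab.le hF hH (fun x hax _ =>
    (le_abs_self _).trans (hc a x hax))
  have h2 := sub_le_of_deriv hab.le hF' hH (fun x hax _ =>
    (neg_le_abs _).trans (hc a x hax))
  have h3 : c * ((u b - u a) / 2 + bulge u U a b)
      = c * (U b - U a - u a * (b - a)) / (b - a) := by
    unfold bulge; field_simp; ring
  rw [h3, le_div_iff₀ hδ, ← abs_of_pos hδ, ← abs_mul, abs_of_pos hδ]
  have h4 : ((f b - f a) / (b - a) - f1 a) * (b - a) = f b - f a - f1 a * (b - a) := by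
    field_simp
  rw [h4, abs_le]
  constructor <;> nlinarith [h1, h2]

/-- the kernel seen from the right end -/
theorem ker_right {f f1 : ℝ → ℝ} {c : ℝ} (hf : ∀ x, HasDerivAt f (f1 x) x)
    (hc : ∀ x y, x ≤ y → |f1 y - f1 x| ≤ c * (u y - u x))
    (hU : ∀ x, HasDerivAt U (u x) x) {a b : ℝ} (hab : a < b) :
    |(f b - f a) / (b - a) - f1 b| ≤ c * ((u b - u a) / 2 - bulge u U a b) := by
  have hδ : 0 < b - a := sub_pos.2 hab
  have hH : ∀ x, HasDerivAt (fun x => c * (u b * x - U x)) (c * (u b - u x)) x := by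
    intro x
    have h1 : HasDerivAt (fun x : ℝ => u b * x) (u b * 1) x := (hasDerivAt_id x).const_mul _
    exact ((h1.fun_sub (hU x)).const_mul c).congr_deriv (by ring)
  have hF : ∀ x, HasDerivAt (fun x => f1 b * x - f x) (f1 b - f1 x) x := by
    intro x
    have h1 : HasDerivAt (fun x : ℝ => f1 b * x) (f1 b * 1) x := (hasDerivAt_id x).const_mul _
    exact (h1.fun_sub (hf x)).congr_deriv (by ring)
  have hF' : ∀ x, HasDerivAt (fun x => -(f1 b * x - f x)) (-(f1 b - f1 x)) x :=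
    fun x => (hF x).fun_neg
  have h1 := sub_le_of_deriv hab.le hF hH (fun x _ hxb =>
    (le_abs_self _).trans (hc x b hxb))
  have h2 := sub_le_of_deriv hab.le hF' hH (fun x _ hxb =>
    (neg_le_abs _).trans (hc x b hxb))
  have h3 : c * ((u b - u a) / 2 - bulge u U a b)
      = c * (u b * (b - a) - (U b - U a)) / (b - a) := by
    unfold bulge; field_simp; ring
  rw [h3, le_div_iff₀ hδ, ← abs_of_pos hδ, ← abs_mul, abs_of_pos hδ]
  have h4 : ((f b - f a) / (b - a) - f1 b) * (b - a) = f b - f a - f1 b * (b - a) := by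
    field_simp
  rw [h4, abs_le]
  constructor <;> nlinarith [h1, h2]

/-- **symmetrised kernel inequality** (ordered pair) -/
theorem ker_sym_lt {f f1 : ℝ → ℝ} {c : ℝ}
    (ht : ∀ x, HasDerivAt t (Real.exp (u x)) x) (hU : ∀ x, HasDerivAt U (u x) x)
    (hu : ConcaveOn ℝ univ u) (hmono : StrictMono u) (hf : ∀ x, HasDerivAt f (f1 x) x)
    (hc : ∀ x y, x ≤ y → |f1 y - f1 x| ≤ c * (u y - u x)) {a b : ℝ} (hab : a < b) :
    (((f b - f a) / (b - a) - f1 a) ^ 2 + ((f b - f a) / (b - a) - f1 b) ^ 2) / 2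
      ≤ 3 * c ^ 2 * sg t u a b := by
  have hd := hmono hab
  have h1 := ker_left hf hc hU hab
  have h2 := ker_right hf hc hU hab
  have h3 := dB_le ht hU hu hab hd
  have h4 : ((f b - f a) / (b - a) - f1 a) ^ 2
      ≤ (c * ((u b - u a) / 2 + bulge u U a b)) ^ 2 := by
    rw [← sq_abs ((f b - f a) / (b - a) - f1 a)]
    exact pow_le_pow_left₀ (abs_nonneg _) h1 2
  have h5 : ((f b - f a) / (b - a) - f1 b) ^ 2
      ≤ (c * ((u b - u a) / 2 - bulge u U a b)) ^ 2 := by
    rw [← sq_abs ((f b - f a) / (b - a) - f1 b)]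
    exact pow_le_pow_left₀ (abs_nonneg _) h2 2
  nlinarith [h3, h4, h5, mul_le_mul_of_nonneg_left h3 (sq_nonneg c)]

end

/-- hypotheses on the reference profile: `t' = exp u`, `u' = nu > 0`, `nu` antitone -/
structure Prof (t u nu : ℝ → ℝ) : Prop where
  ht : ∀ x, HasDerivAt t (Real.exp (u x)) x
  hu : ∀ x, HasDerivAt u (nu x) x
  pos : ∀ x, 0 < nu x
  anti : Antitone nu

namespace Prof

variable {t u nu : ℝ → ℝ} (P : Prof t u nu)
include P

theorem deriv_eq : deriv u = nu := funext fun x => (P.hu x).deriv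

theorem differentiable : Differentiable ℝ u := fun x => (P.hu x).differentiableAt

theorem concave : ConcaveOn ℝ univ u := by
  apply Antitone.concaveOn_univ_of_deriv P.differentiable
  rw [P.deriv_eq]; exact P.anti

theorem mono : StrictMono u := by
  apply strictMono_of_deriv_pos
  intro x; rw [P.deriv_eq]; exact P.pos x

theorem prim : ∃ U : ℝ → ℝ, ∀ x, HasDerivAt U (u x) x := by
  refine ⟨fun x => ∫ s in (0:ℝ)..x, u s, fun x => ?_⟩
  exact intervalIntegral.integral_hasDerivAt_right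
    (P.differentiable.continuous.intervalIntegrable _ _)
    (P.differentiable.continuous.stronglyMeasurableAtFilter _ _)
    P.differentiable.continuous.continuousAt

theorem sg_nonneg {a b : ℝ} (hab : a ≠ b) : 0 ≤ sg t u a b := by
  obtain ⟨U, hU⟩ := P.prim
  rcases lt_or_gt_of_ne hab with h | h
  · have := sg_ge_d P.ht hU P.concave h (P.mono h)
    have h2 : 0 ≤ (u b - u a) ^ 2 / 12 + (u b - u a) ^ 4 / 576 := by positivity
    linarith
  · rw [sg_comm]
    have := sg_ge_d P.ht hU P.concave h (P.mono h)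
    have h2 : 0 ≤ (u a - u b) ^ 2 / 12 + (u a - u b) ^ 4 / 576 := by positivity
    linarith

/-- `(log lm b - log lm a) ^ 2 ≤ 12 sig a b` -/
theorem d_sq_le {a b : ℝ} (hab : a ≠ b) : (u b - u a) ^ 2 ≤ 12 * sg t u a b := by
  obtain ⟨U, hU⟩ := P.prim
  rcases lt_or_gt_of_ne hab with h | h
  · have := sg_ge_d P.ht hU P.concave h (P.mono h)
    nlinarith [sq_nonneg ((u b - u a) ^ 2)]
  · rw [sg_comm]
    have := sg_ge_d P.ht hU P.concave h (P.mono h)
    nlinarith [sq_nonneg ((u a - u b) ^ 2)]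

theorem abs_sub_le {f1 f2 : ℝ → ℝ} {c : ℝ} (hf1 : ∀ x, HasDerivAt f1 (f2 x) x)
    (hc : ∀ x, |f2 x| ≤ c * nu x) (a b : ℝ) : |f1 b - f1 a| ≤ c * |u b - u a| := by
  rcases le_total a b with h | h
  · have h1 := abs_sub_le_of_deriv hf1 P.hu hc h
    rw [abs_of_nonneg (sub_nonneg.2 (P.mono.monotone h))]
    exact h1
  · have h1 := abs_sub_le_of_deriv hf1 P.hu hc h
    rw [abs_sub_comm (f1 b), abs_sub_comm (u b),
      abs_of_nonneg (sub_nonneg.2 (P.mono.monotone h))]
    exact h1

/-- **difference of values**: `(g b - g a) ^ 2 ≤ 12 c ^ 2 sig` if `|g'| ≤ c nu` -/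
theorem diff_sq_le {g g1 : ℝ → ℝ} {c : ℝ} (hg : ∀ x, HasDerivAt g (g1 x) x)
    (hc : ∀ x, |g1 x| ≤ c * nu x) {a b : ℝ} (hab : a ≠ b) :
    (g b - g a) ^ 2 ≤ 12 * c ^ 2 * sg t u a b := by
  have h1 := P.abs_sub_le hg hc a b
  have h2 := P.d_sq_le hab
  have h3 : (g b - g a) ^ 2 ≤ (c * |u b - u a|) ^ 2 := by
    rw [← sq_abs (g b - g a)]
    exact pow_le_pow_left₀ (abs_nonneg _) h1 2
  rw [mul_pow, sq_abs] at h3
  nlinarith [mul_le_mul_of_nonneg_left h2 (sq_nonneg c)]

/-- **symmetrised kernel**: for `f' = f1`, `f1' = f2`, `|f2| ≤ c nu` and `a ≠ b`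
`((f[a,b] - f' a) ^ 2 + (f[a,b] - f' b) ^ 2) / 2 ≤ 3 c ^ 2 sig a b`. -/
theorem ker_sym {f f1 f2 : ℝ → ℝ} {c : ℝ} (hf : ∀ x, HasDerivAt f (f1 x) x)
    (hf1 : ∀ x, HasDerivAt f1 (f2 x) x) (hc : ∀ x, |f2 x| ≤ c * nu x) {a b : ℝ}
    (hab : a ≠ b) :
    (((f b - f a) / (b - a) - f1 a) ^ 2 + ((f b - f a) / (b - a) - f1 b) ^ 2) / 2
      ≤ 3 * c ^ 2 * sg t u a b := by
  obtain ⟨U, hU⟩ := P.prim
  have hcc : ∀ x y, x ≤ y → |f1 y - f1 x| ≤ c * (u y - u x) := fun x y hxy =>
    abs_sub_le_of_deriv hf1 P.hu hc hxy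
  rcases lt_or_gt_of_ne hab with h | h
  · exact ker_sym_lt P.ht hU P.concave P.mono hf hcc h
  · have h1 := ker_sym_lt P.ht hU P.concave P.mono hf hcc h
    have h2 : (f a - f b) / (a - b) = (f b - f a) / (b - a) := by
      rw [← neg_sub (f b) (f a), ← neg_sub b a, neg_div_neg_eq]
    rw [h2] at h1
    rw [sg_comm]
    linarith

/-- one-sided kernel: `(f[a,b] - f' a) ^ 2 ≤ 6 c ^ 2 sig a b` -/
theorem ker_one {f f1 f2 : ℝ → ℝ} {c : ℝ} (hf : ∀ x, HasDerivAt f (f1 x) x)
    (hf1 : ∀ x, HasDerivAt f1 (f2 x) x) (hc : ∀ x, |f2 x| ≤ c * nu x) {a b : ℝ}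
    (hab : a ≠ b) :
    ((f b - f a) / (b - a) - f1 a) ^ 2 ≤ 6 * c ^ 2 * sg t u a b := by
  have h := P.ker_sym hf hf1 hc hab
  nlinarith [sq_nonneg ((f b - f a) / (b - a) - f1 b)]

end Prof

end Vale.Agent.P254.H807
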