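import Vale.Agent.P254.SP.H958.Fin
import Vale.Agent.P254.SP.H448.W2
import Vale.Agent.P254.H721.K8

/-!
P254, line (SP_0): the kernel `ktot (43/100) (1/2)` is bounded by `√r'(x)` times the area, from
one-variable inequalities (helper807).  Both cases by differentiation at the weight point.
-/

set_option linter.all false

open MeasureTheory Set Filter Topology

namespace Vale.Agent.P254.SP.H807K

open Vale.Agent.P254.SP448 (w w1 th th1 th2)
open Vale.Agent.P254.H156 (nu r r1 r2 r3)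
open Vale.Agent.P254.SP.H958 (Ar)

theorem mono_of {f f' : ℝ → ℝ} {a b : ℝ} (hab : a ≤ b) (hf : ∀ x, HasDerivAt f (f' x) x)
    (h : ∀ x, a < x → x < b → 0 ≤ f' x) : f a ≤ f b := by
  have h1 := monotoneOn_of_deriv_nonneg (convex_Icc a b)
    (fun y _ => (hf y).continuousAt.continuousWithinAt)
    (fun y _ => (hf y).differentiableAt.differentiableWithinAt)
    (fun y hy => by
      rw [interior_Icc] at hy
      rw [(hf y).deriv]
      exact h y hy.1 hy.2)
  exact h1 (left_mem_Icc.2 hab) (right_mem_Icc.2 hab) hab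

/-- `(b - a) ktot` -/
noncomputable def KK (a b : ℝ) : ℝ :=
  r b - r a + r a * (r1 b - r1 a) - w a * (b - a) - r1 b * (r b - r a - r1 b * (b - a))
    - 43 / 100 * (th b - th a - th1 a * (b - a)) - 1 / 2 * (r1 b ^ 2 - r1 a ^ 2) * (b - a)

/-- derivative of `KK` in `a` -/
noncomputable def KKa (a b : ℝ) : ℝ :=
  (b - a) * (-(57 / 100 * w1 a) + 93 / 50 * (r1 a * r2 a))
    + (r1 b - r1 a) * (3 / 2 * r1 a - 1 / 2 * r1 b)

theorem hasDerivAt_KK (b a : ℝ) : HasDerivAt (fun s => KK s b) (KKa a b) a := by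
  have d0 := (hasDerivAt_id a).const_sub b
  have dr := H156.hasDerivAt_r a
  have dr1 := H156.hasDerivAt_r1 a
  have dw := SP448.hasDerivAt_w a
  have dth := SP448.hasDerivAt_th a
  have dth1 := SP448.hasDerivAt_th1 a
  have e1 := dr.const_sub (r b)
  have e2 := dr.mul (dr1.const_sub (r1 b))
  have e3 := dw.mul d0
  have e4 := (e1.sub (d0.const_mul (r1 b))).const_mul (r1 b)
  have e5 := ((dth.const_sub (th b)).sub (dth1.mul d0)).const_mul (43 / 100)
  have e6 := (((dr1.pow 2).const_sub (r1 b ^ 2)).const_mul (1 / 2)).mul d0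
  have h := ((((e1.add e2).sub e3).sub e4).sub e5).sub e6
  refine (h.congr_of_eventuallyEq (Eventually.of_forall fun s => ?_)).congr_deriv ?_
  · simp only [KK, Pi.add_apply, Pi.sub_apply, Pi.mul_apply, Pi.pow_apply, id]
  · simp only [Pi.add_apply, Pi.sub_apply, Pi.mul_apply, Pi.pow_apply, id, Nat.cast_ofNat,
      Nat.reduceSub, pow_one]
    unfold KKa th2 th1 w
    ring

theorem KK_self (a : ℝ) : KK a a = 0 := by unfold KK; ring

theorem r1_mono {a b : ℝ} (h : a ≤ b) : r1 a ≤ r1 b :=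
  mono_of h H156.hasDerivAt_r1 fun x _ _ => (H156.r2_pos x).le

theorem nu_anti {a b : ℝ} (h : a ≤ b) : nu b ≤ nu a := by
  have := mono_of (f := fun x => -nu x) h (fun x => (SP448.hasDerivAt_nu x).neg)
    (fun x _ _ => by have := SP448.V_pos x; linarith)
  linarith

/-- the explicit upper bound of `KK / (b - a)` -/
noncomputable def hh (a : ℝ) : ℝ := max (1 / 4 - 3 / 2 * r1 a) 0

noncomputable def phi (a b s : ℝ) : ℝ :=
  57 / 100 * (th s - w a * s) + 43 / 100 * r1 a ^ 2 * s - 2 * r1 b * r s + r1 b ^ 2 * s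
    - 1 / 2 * (r1 b ^ 2 - r1 a ^ 2) * s

theorem phi_sub (a b : ℝ) : phi a b b - phi a b a = KK a b := by
  unfold phi KK th1 th
  ring

theorem hasDerivAt_phi (a b s : ℝ) : HasDerivAt (phi a b)
    (57 / 100 * (w s - w a) - 43 / 100 * (r1 s ^ 2 - r1 a ^ 2) + (r1 b - r1 s) ^ 2
      - 1 / 2 * (r1 b ^ 2 - r1 a ^ 2)) s := by
  have d0 := hasDerivAt_id s
  have dr := H156.hasDerivAt_r s
  have dth := SP448.hasDerivAt_th s
  have h := ((((dth.sub (d0.const_mul (w a))).const_mul (57 / 100)).add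
    (d0.const_mul (43 / 100 * r1 a ^ 2))).sub (dr.const_mul (2 * r1 b))).add
    (d0.const_mul (r1 b ^ 2)) |>.sub (d0.const_mul (1 / 2 * (r1 b ^ 2 - r1 a ^ 2)))
  refine (h.congr_of_eventuallyEq (Eventually.of_forall fun s => ?_)).congr_deriv ?_
  · simp only [phi, Pi.add_apply, Pi.sub_apply, Pi.mul_apply, Pi.pow_apply, id]
  ·
    unfold th1
    ring

theorem prod_le {x y S c : ℝ} (hx0 : 0 ≤ x) (hx : x ≤ c) (hy : y ≤ S) (hS : 0 ≤ S) (hc : 0 ≤ c) :
    x * y ≤ c * S := by
  calc x * y ≤ x * S := mul_le_mul_of_nonneg_left hy hx0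
    _ ≤ c * S := mul_le_mul_of_nonneg_right hx hS

theorem KK_le {a b : ℝ} (hab : a ≤ b) :
    KK a b ≤ (57 / 100 * (1 / 2 - w a) + (1 / 2 - r1 a) * hh a) * (b - a) := by
  have hb := r1_mono hab
  have hb2 := (H156.r1_lt_half b).le
  have ha0 := H156.r1_pos a
  have hh0 : 0 ≤ hh a := le_max_right _ _
  have hh1 : 1 / 4 - 3 / 2 * r1 a ≤ hh a := le_max_left _ _
  have h := mono_of (f := fun s => (57 / 100 * (1 / 2 - w a) + (1 / 2 - r1 a) * hh a) * s - phi a b s)
    hab (fun s => ((hasDerivAt_id s).const_mul _).fun_sub (hasDerivAt_phi a b s))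
    (fun s h1 h2 => by
      have k1 := r1_mono h1.le
      have k2 := r1_mono h2.le
      have k3 := SP448.w_lt_half s
      have k4 : (r1 b - r1 s) ^ 2 ≤ (r1 b - r1 a) ^ 2 := by
        apply pow_le_pow_left₀ <;> linarith
      have k5 : (r1 b - r1 a) * (1 / 2 * r1 b - 3 / 2 * r1 a) ≤ (1 / 2 - r1 a) * hh a :=
        prod_le (by linarith) (by linarith) (by linarith) hh0 (by linarith)
      have k6 : 0 ≤ r1 s ^ 2 - r1 a ^ 2 := by nlinarith
      nlinarith)
  have _h := h
  have := phi_sub a b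
  linarith

/-- `w` decreases at most by `(47/250) ` times the increment of `r'` -/
theorem w_ge {a b : ℝ} (hab : a ≤ b) : w a - 47 / 250 * (r1 b - r1 a) ≤ w b := by
  have h := mono_of (f := fun s => w s + 47 / 250 * r1 s) hab
    (fun s => (SP448.hasDerivAt_w s).fun_add ((H156.hasDerivAt_r1 s).const_mul _))
    (fun s _ _ => by
      have h1 := SP448.nu_mul_w1 s
      have h2 := SP448.C_pos (-s)
      rw [SP448.b_eq] at h2
      have h3 := H958.r2_le_nu s
      have h4 := H156.r2_pos s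
      have h5 := H156.nu_pos s
      have h7 : 0 ≤ (2 * SP448.V s ^ 2 - (1 - SP448.V s) * (nu s ^ 2 - SP448.V s)) * r s ^ 2 := by
        refine mul_nonneg ?_ (sq_nonneg _)
        unfold SP448.V at *
        exact h2.le
      have h8 : 0 ≤ nu s * (w1 s + 47 / 250 * r2 s) := by
        have : nu s * (w1 s + 47 / 250 * r2 s) = nu s * w1 s + 47 / 250 * nu s * r2 s := by ring
        rw [this, h1]
        nlinarith [mul_nonneg h4.le (sub_nonneg.2 h3)]
      exact nonneg_of_mul_nonneg_right h8 h5)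
  linarith

theorem KK_ge {a b : ℝ} (hab : a ≤ b) :
    -(93 / 100 * (1 / 4 - r1 a ^ 2) + 27 / 250 * (1 / 2 - r1 a)) * (b - a) ≤ KK a b := by
  have hb := r1_mono hab
  have hb2 := (H156.r1_lt_half b).le
  have ha0 := H156.r1_pos a
  have h := mono_of (f := fun s => phi a b s +
      (93 / 100 * (1 / 4 - r1 a ^ 2) + 27 / 250 * (1 / 2 - r1 a)) * s)
    hab (fun s => (hasDerivAt_phi a b s).fun_add ((hasDerivAt_id s).const_mul _))
    (fun s h1 h2 => by
      have k1 := r1_mono h1.le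
      have k2 := r1_mono h2.le
      have k3 := w_ge h1.le
      have k4 : 0 ≤ (r1 b - r1 s) ^ 2 := sq_nonneg _
      have k5 : r1 s ^ 2 ≤ 1 / 4 := by nlinarith [H156.r1_pos s, H156.r1_lt_half s]
      have k6 : r1 b ^ 2 ≤ 1 / 4 := by nlinarith [H156.r1_pos b]
      nlinarith)
  have := phi_sub a b
  linarith

/-! ### case 1: the weight point on the left -/

/-- the two one-variable inequalities of case 1 at `x` -/
def Up (x : ℝ) : Prop :=
  221 / 2500 * hh x + 57 / 100 * w1 x - 93 / 50 * (r1 x * r2 x)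
    + (57 / 100 * (1 / 2 - w x) + (1 / 2 - r1 x) * hh x) * (r2 x / (2 * r1 x))
    ≤ 129 / 1000 * √(r1 x) * nu x

def Dn (x : ℝ) : Prop :=
  47 / 500 * nu x * r1 x - 57 / 100 * w1 x + 93 / 50 * (r1 x * r2 x)
    + (93 / 100 * (1 / 4 - r1 x ^ 2) + 27 / 250 * (1 / 2 - r1 x)) * (r2 x / (2 * r1 x))
    ≤ 129 / 1000 * √(r1 x) * nu x

theorem r2_le_c (x : ℝ) : r2 x ≤ 221 / 2500 := by
  have h1 : 8 * r2 x ^ 2 ≤ r1 x * (1 / 2 - r1 x) := by
    have h := H721.key8 x
    have e1 : H721.r2 x = r2 x := by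
      rw [H721.r2_eq, SP448.r2_eq]
      unfold SP448.Qd
      have e1 : r x = H721.r x := rfl
      have e2 : nu x = H721.mm x := rfl
      have e3 : SP448.V x = H721.vv x := rfl
      rw [e1, e2, e3]
      ring
    have e2 : H721.r1 x = r1 x := by
      rw [H721.r1_eq]
      have e1 : r x = H721.r x := rfl
      have e2 : nu x = H721.mm x := rfl
      unfold H156.r1
      rw [e1, e2]
    rw [e1, e2] at h
    exact h
  by_contra hc
  push Not at hc
  nlinarith [sq_nonneg (r1 x - 1 / 4)]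

theorem X_bound (hU : ∀ x, Up x) (hD : ∀ x, Dn x) {s b : ℝ} (hab : s ≤ b) :
    |KKa s b - KK s b * (r2 s / (2 * r1 s))| ≤ 129 / 1000 * √(r1 s) * nu s * (b - s) := by
  have hb := r1_mono hab
  have hb2 := (H156.r1_lt_half b).le
  have hs2 := (H156.r1_lt_half s).le
  have ha0 := H156.r1_pos s
  have hq0 : 0 ≤ r2 s / (2 * r1 s) := by
    have := H156.r2_pos s
    positivity
  have hd : 0 ≤ b - s := by linarith
  have hh0 : 0 ≤ hh s := le_max_right _ _
  have hh1 : 1 / 4 - 3 / 2 * r1 s ≤ hh s := le_max_left _ _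
  have u := mul_le_mul_of_nonneg_right (hU s) hd
  have l := mul_le_mul_of_nonneg_right (hD s) hd
  have k1 := mul_le_mul_of_nonneg_right (KK_le hab) hq0
  have k2 := mul_le_mul_of_nonneg_right (KK_ge hab) hq0
  have g1 : r1 b - r1 s ≤ 221 / 2500 * (b - s) := by
    have := mono_of (f := fun x => 221 / 2500 * x - r1 x) hab
      (fun x => ((hasDerivAt_id x).const_mul _).fun_sub (H156.hasDerivAt_r1 x))
      (fun x _ _ => by have := r2_le_c x; linarith)
    linarith
  have g2 : r1 b - r1 s ≤ 47 / 500 * nu s * (b - s) := by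
    have := mono_of (f := fun x => 47 / 500 * nu s * x - r1 x) hab
      (fun x => ((hasDerivAt_id x).const_mul _).fun_sub (H156.hasDerivAt_r1 x))
      (fun x h1 _ => by
        have := H958.r2_le_nu x
        have := nu_anti h1.le
        linarith)
    linarith
  have m1 : (r1 b - r1 s) * (1 / 2 * r1 b - 3 / 2 * r1 s) ≤ 221 / 2500 * (b - s) * hh s :=
    prod_le (by linarith) g1 (by linarith) hh0 (by positivity)
  have m2 : (r1 b - r1 s) * (3 / 2 * r1 s - 1 / 2 * r1 b) ≤ 47 / 500 * nu s * (b - s) * r1 s :=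
    prod_le (by linarith) g2 (by linarith) ha0.le (by have := H156.nu_pos s; positivity)
  generalize r2 s / (2 * r1 s) = q0 at *
  rw [abs_le]
  unfold KKa
  constructor
  · nlinarith
  · nlinarith

section area

variable {L J : ℝ → ℝ}

theorem caseR (hU : ∀ x, Up x) (hD : ∀ x, Dn x) (hL : ∀ x, HasDerivAt L (nu x) x)
    (hJ : ∀ x, HasDerivAt J (L x) x) {a b : ℝ} (hab : a ≤ b) :
    |KK a b| ≤ 129 / 1000 * √(r1 a) * Ar L J a b := by
  have hq : ∀ x, HasDerivAt (fun s => √(r1 s)) (r2 x / (2 * √(r1 x))) x := fun x =>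
    (H156.hasDerivAt_r1 x).sqrt (H156.r1_pos x).ne'
  have hq0 : ∀ x, 0 < √(r1 x) := fun x => Real.sqrt_pos.2 (H156.r1_pos x)
  have hA : ∀ s, HasDerivAt (fun s => Ar L J s b) (-(nu s * (b - s))) s := fun s => by
    have h := ((hJ s).const_sub (J b)).fun_sub ((hL s).fun_mul ((hasDerivAt_id s).const_sub b))
    refine h.congr_deriv ?_
    simp only [id]
    ring
  have hK : ∀ s, HasDerivAt (fun s => KK s b / √(r1 s))
      ((KKa s b - KK s b * (r2 s / (2 * r1 s))) / √(r1 s)) s := fun s => by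
    have h := (hasDerivAt_KK b s).fun_div (hq s) (hq0 s).ne'
    refine h.congr_deriv ?_
    have h1 := (hq0 s).ne'
    have h2 := (H156.r1_pos s).ne'
    have h3 : √(r1 s) ^ 2 = r1 s := Real.sq_sqrt (H156.r1_pos s).le
    rw [← h3]
    have h4 : √(√(r1 s) ^ 2) = √(r1 s) := by rw [h3]
    rw [h4]
    field_simp
  have key : ∀ σ : ℝ, |σ| = 1 → σ * (KK a b / √(r1 a)) ≤ 129 / 1000 * Ar L J a b := by
    intro σ hσ
    have h := mono_of (f := fun s => σ * (KK s b / √(r1 s)) - 129 / 1000 * Ar L J s b) hab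
      (fun s => ((hK s).const_mul σ).fun_sub ((hA s).const_mul (129 / 1000)))
      (fun s h1 h2 => by
        have hx := X_bound hU hD h2.le
        have h3 : |σ * ((KKa s b - KK s b * (r2 s / (2 * r1 s))) / √(r1 s))|
            ≤ 129 / 1000 * nu s * (b - s) := by
          rw [abs_mul, hσ, one_mul, abs_div, abs_of_pos (hq0 s), div_le_iff₀ (hq0 s)]
          linarith
        have := neg_abs_le (σ * ((KKa s b - KK s b * (r2 s / (2 * r1 s))) / √(r1 s)))
        linarith)
    have e0 : Ar L J b b = 0 := by unfold Ar; ring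
    rw [KK_self, e0] at h
    simp only [zero_div, mul_zero, sub_zero] at h
    linarith
  have k1 := key 1 (by norm_num)
  have k2 := key (-1) (by norm_num)
  have hq1 := hq0 a
  have e : KK a b = √(r1 a) * (KK a b / √(r1 a)) := by field_simp
  rw [e, abs_mul, abs_of_pos hq1]
  have : |KK a b / √(r1 a)| ≤ 129 / 1000 * Ar L J a b := by
    rw [abs_le]
    constructor <;> linarith
  calc √(r1 a) * |KK a b / √(r1 a)| ≤ √(r1 a) * (129 / 1000 * Ar L J a b) :=
        mul_le_mul_of_nonneg_left this hq1.le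
    _ = _ := by ring

/-! ### case 2: the weight point on the right -/

/-- the two one-variable inequalities of case 2 -/
def C5 (x : ℝ) : Prop := -r3 x * (1 - r1 x) + r2 x ^ 2 ≤ 9 / 100 * SP448.V x
def C6 (x : ℝ) : Prop := -r3 x * r1 x + r2 x ^ 2 ≤ 9 / 50 * (r1 x * SP448.V x)

theorem sqrt_ge {T : ℝ} (h0 : 0 < T) (h1 : T ≤ 1 / 2) : 7 / 5 * T ≤ √T := by
  apply Real.le_sqrt_of_sq_le
  nlinarith

theorem E_anti (h5 : ∀ x, C5 x) (h6 : ∀ x, C6 x) {s q : ℝ} (hsq : s ≤ q) :
    129 / 1000 * √(r1 q) * nu q - r2 q * r1 q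
      ≤ 129 / 1000 * √(r1 q) * nu s - r2 s * (2 * r1 q - r1 s) := by
  have hT0 := H156.r1_pos q
  have hT1 := H156.r1_lt_half q
  have hT2 := sqrt_ge hT0 hT1.le
  have h := mono_of (f := fun x => -(129 / 1000 * √(r1 q)) * nu x + r2 x * (2 * r1 q - r1 x)) hsq
    (fun x => ((SP448.hasDerivAt_nu x).const_mul _).fun_add ((H156.hasDerivAt_r2 x).fun_mul
      ((H156.hasDerivAt_r1 x).const_sub (2 * r1 q))))
    (fun x h1 h2 => by
      have k1 := r1_mono h2.le
      have k2 := h5 x
      have k3 := h6 x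
      have k4 := H156.r1_pos x
      have k5 := H156.r1_lt_half x
      have k6 := SP448.V_pos x
      unfold C5 at k2
      unfold C6 at k3
      -- affine in `T`
      have k7 : 0 ≤ 9 / 50 * r1 q * SP448.V x + r3 x * (2 * r1 q - r1 x) - r2 x ^ 2 := by
        have e : (1 / 2 - r1 x) * (9 / 50 * r1 q * SP448.V x + r3 x * (2 * r1 q - r1 x) - r2 x ^ 2)
            = (1 / 2 - r1 q) * (9 / 50 * (r1 x * SP448.V x) - (-r3 x * r1 x + r2 x ^ 2))
              + (r1 q - r1 x) * (9 / 100 * SP448.V x - (-r3 x * (1 - r1 x) + r2 x ^ 2)) := by ring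
        have h7 : 0 ≤ (1 / 2 - r1 x) *
            (9 / 50 * r1 q * SP448.V x + r3 x * (2 * r1 q - r1 x) - r2 x ^ 2) := by
          rw [e]
          have a1 : 0 ≤ (1 / 2 - r1 q) * (9 / 50 * (r1 x * SP448.V x) - (-r3 x * r1 x + r2 x ^ 2)) :=
            mul_nonneg (by linarith) (by linarith)
          have a2 : 0 ≤ (r1 q - r1 x) * (9 / 100 * SP448.V x - (-r3 x * (1 - r1 x) + r2 x ^ 2)) :=
            mul_nonneg (by linarith) (by linarith)
          linarith
        exact nonneg_of_mul_nonneg_right h7 (by linarith)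
      have k8 : 9 / 50 * r1 q * SP448.V x ≤ 129 / 1000 * √(r1 q) * SP448.V x := by
        apply mul_le_mul_of_nonneg_right _ k6.le
        linarith
      nlinarith)
  have e : 2 * r1 q - r1 q = r1 q := by ring
  rw [e] at h
  linarith

theorem w1_bound (hU : ∀ x, Up x) (x : ℝ) :
    57 / 100 * w1 x - 93 / 50 * (r1 x * r2 x) ≤ 129 / 1000 * √(r1 x) * nu x := by
  have h := hU x
  unfold Up at h
  have h1 : 0 ≤ r2 x / (2 * r1 x) := by
    have := H156.r2_pos x
    have := H156.r1_pos x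
    positivity
  have h2 : 0 ≤ hh x := le_max_right _ _
  have h3 := SP448.w_lt_half x
  have h4 := H156.r1_lt_half x
  have h5 : 0 ≤ (57 / 100 * (1 / 2 - w x) + (1 / 2 - r1 x) * hh x) * (r2 x / (2 * r1 x)) := by
    refine mul_nonneg (add_nonneg (by linarith) (mul_nonneg (by linarith) h2)) h1
  linarith

theorem g_bound (hD : ∀ x, Dn x) (x : ℝ) :
    93 / 50 * (r1 x * r2 x) - 57 / 100 * w1 x + r2 x * r1 x ≤ 129 / 1000 * √(r1 x) * nu x := by
  have h := hD x
  unfold Dn at h
  have k1 := H156.r1_pos x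
  have k2 := H156.r1_lt_half x
  have h1 : 0 ≤ r2 x / (2 * r1 x) := by
    have := H156.r2_pos x
    positivity
  have h3 := mul_le_mul_of_nonneg_right (H958.r2_le_nu x) k1.le
  have h5 : 0 ≤ (93 / 100 * (1 / 4 - r1 x ^ 2) + 27 / 250 * (1 / 2 - r1 x)) * (r2 x / (2 * r1 x)) := by
    refine mul_nonneg (by nlinarith) h1
  linarith

theorem G_bound (hU : ∀ x, Up x) (hD : ∀ x, Dn x) (h5 : ∀ x, C5 x) (h6 : ∀ x, C6 x)
    (hL : ∀ x, HasDerivAt L (nu x) x) {p q : ℝ} (hpq : p ≤ q) :
    |KKa q p| ≤ 129 / 1000 * √(r1 q) * (L q - L p) := by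
  have hq0 := Real.sqrt_nonneg (r1 q)
  have k0 := H156.r1_pos q
  have kp := r1_mono hpq
  have kp0 := H156.r1_pos p
  have hK : KKa q p = -((q - p) * (93 / 50 * (r1 q * r2 q) - 57 / 100 * w1 q)
      + (r1 q - r1 p) * (3 / 2 * r1 q - 1 / 2 * r1 p)) := by
    unfold KKa
    ring
  rw [hK, abs_neg, abs_le]
  constructor
  · -- lower
    have h1 : nu q * (q - p) ≤ L q - L p := by
      have := mono_of (f := fun x => L x - nu q * x) hpq
        (fun x => (hL x).fun_sub ((hasDerivAt_id x).const_mul _))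
        (fun x _ h2 => by have := nu_anti h2.le; linarith)
      linarith
    have h2 := mul_le_mul_of_nonneg_left h1 (by positivity : 0 ≤ 129 / 1000 * √(r1 q))
    have h3 := mul_le_mul_of_nonneg_right (w1_bound hU q) (by linarith : 0 ≤ q - p)
    have h4 : 0 ≤ (r1 q - r1 p) * (3 / 2 * r1 q - 1 / 2 * r1 p) :=
      mul_nonneg (by linarith) (by linarith)
    nlinarith
  · have h := mono_of (f := fun s => -(129 / 1000 * √(r1 q) * (L q - L s)
        - (q - s) * (93 / 50 * (r1 q * r2 q) - 57 / 100 * w1 q)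
        - (r1 q - r1 s) * (3 / 2 * r1 q - 1 / 2 * r1 s))) hpq
      (fun s => (((((hL s).const_sub (L q)).const_mul (129 / 1000 * √(r1 q))).fun_sub
        (((hasDerivAt_id s).const_sub q).mul_const _)).fun_sub
        (((H156.hasDerivAt_r1 s).const_sub (r1 q)).fun_mul
          (((H156.hasDerivAt_r1 s).const_mul (1 / 2)).const_sub (3 / 2 * r1 q)))).fun_neg)
      (fun s h1 h2 => by
        have k1 := E_anti h5 h6 h2.le
        have k2 := g_bound hD q
        nlinarith)
    simp only [sub_self, zero_mul, mul_zero, neg_zero] at h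
    linarith

theorem caseL (hU : ∀ x, Up x) (hD : ∀ x, Dn x) (h5 : ∀ x, C5 x) (h6 : ∀ x, C6 x)
    (hm : Antitone nu) (hL : ∀ x, HasDerivAt L (nu x) x)
    (hJ : ∀ x, HasDerivAt J (L x) x) {p q : ℝ} (hpq : p ≤ q) :
    |KK q p| ≤ 129 / 1000 * √(r1 q) * Ar L J p q := by
  have hq : ∀ x, HasDerivAt (fun s => √(r1 s)) (r2 x / (2 * √(r1 x))) x := fun x =>
    (H156.hasDerivAt_r1 x).sqrt (H156.r1_pos x).ne'
  have hq0 : ∀ x, 0 < √(r1 x) := fun x => Real.sqrt_pos.2 (H156.r1_pos x)
  have hA : ∀ s, HasDerivAt (fun s => Ar L J p s) (L s - L p) s := fun s => by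
    have h := ((hJ s).sub_const (J p)).fun_sub (((hasDerivAt_id s).sub_const p).const_mul (L p))
    refine h.congr_deriv ?_
    ring
  have hK : ∀ s, HasDerivAt (fun s => KK s p) (KKa s p) s := fun s => hasDerivAt_KK p s
  have key : ∀ σ : ℝ, |σ| = 1 → 0 ≤ 129 / 1000 * √(r1 q) * Ar L J p q + σ * KK q p := by
    intro σ hσ
    have h := mono_of (f := fun s => 129 / 1000 * √(r1 s) * Ar L J p s + σ * KK s p) hpq
      (fun s => (((hq s).const_mul (129 / 1000)).fun_mul (hA s)).fun_add ((hK s).const_mul σ))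
      (fun s h1 h2 => by
        have hx := G_bound hU hD h5 h6 hL h1.le
        have hA0 := H958.Ar_nonneg hL hm (fun x => (H156.nu_pos x).le) hJ h1.le
        have h3 : |σ * KKa s p| ≤ 129 / 1000 * √(r1 s) * (L s - L p) := by
          rw [abs_mul, hσ, one_mul]
          exact hx
        have h4 := neg_abs_le (σ * KKa s p)
        have h5 : 0 ≤ 129 / 1000 * (r2 s / (2 * √(r1 s))) * Ar L J p s := by
          have := H156.r2_pos s
          have := hq0 s
          positivity
        linarith)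
    have e0 : Ar L J p p = 0 := by unfold Ar; ring
    rw [KK_self, e0] at h
    simp only [mul_zero, add_zero] at h
    exact h
  have k1 := key 1 (by norm_num)
  have k2 := key (-1) (by norm_num)
  rw [abs_le]
  constructor <;> linarith

end area

end Vale.Agent.P254.SP.H807K
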