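import Vale.Agent.P254.H721.Env

/-! P254, line (SP_0): expressions for the one-variable inequalities of `ktot` (helper807). -/

set_option linter.all false

namespace Vale.Agent.P254.SP.H807K

open Vale.Agent.P254.H721 Vale.Agent.P254.H721.Cert

def eB : Pe := .m * .m - eV
def ew : Pe := eR1 * eR1 + .r * .r * eV
def ew1 : Pe := .c 2 1 * (eR1 * eR2) + .c 2 1 * (.r * eR1 * eV) - .r * .r * (eL * eB)
def er3 : Pe := .c 2 1 * (eR1 * eV) - .r * (eL * eB) - .m * eR2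

/-- common shape: `129/250 s S² m - (S + s²) (2 S A + B S')` -/
def eShape (s A B : Pe) : Pe :=
  .c 129 250 * (s * (eR1 * eR1 * .m)) - (eR1 + s * s) * (.c 2 1 * eR1 * A + B * eR2)

def eUa (s : Pe) : Pe := eShape s
  (.c 221 2500 * (.c 1 4 - .c 3 2 * eR1) + .c 57 100 * ew1 - .c 93 50 * (eR1 * eR2))
  (.c 57 100 * (.c 1 2 - ew) + (.c 1 2 - eR1) * (.c 1 4 - .c 3 2 * eR1))

def eUb (s : Pe) : Pe := eShape s
  (.c 57 100 * ew1 - .c 93 50 * (eR1 * eR2)) (.c 57 100 * (.c 1 2 - ew))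

def eDn (s : Pe) : Pe := eShape s
  (.c 47 500 * (.m * eR1) - .c 57 100 * ew1 + .c 93 50 * (eR1 * eR2))
  (.c 93 100 * (.c 1 4 - eR1 * eR1) + .c 27 250 * (.c 1 2 - eR1))

/-- `Dn` times `m`, with `m w' ≥ 3 V³ r² - 2 S'²` -/
def eDn3 (s : Pe) : Pe :=
  .c 129 250 * (s * (eR1 * .m) * (eR1 * .m)) - (eR1 + s * s) * (.c 2 1 * eR1 *
  (.c 47 500 * (.m * .m * eR1) - .c 57 100 * (.c 3 1 * (eV * eV * eV * (.r * .r)) - .c 2 1 * (eR2 * eR2))
    + .c 93 50 * (eR1 * eR2 * .m)) + (.c 93 100 * (.c 1 4 - eR1 * eR1) + .c 27 250 * (.c 1 2 - eR1))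
    * (eR2 * .m))

def eC5 : Pe := .c 9 100 * eV + er3 * (.c 1 1 - eR1) - eR2 * eR2
def eC6 : Pe := .c 9 50 * (eR1 * eV) + er3 * eR1 - eR2 * eR2

end Vale.Agent.P254.SP.H807K
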