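import Vale.Agent.P254.SP.H807.KtA
import Vale.Agent.P254.SP.H807.KtE
import Vale.Agent.P254.SP.H222.Tail

/-! P254, line (SP_0): the one-variable inequalities `Up`, `Dn` of `ktot` (helper807). -/

set_option linter.all false

open MeasureTheory Set Filter Topology

namespace Vale.Agent.P254.SP.H807K

open Vale.Agent.P254.SP448 (w w1 b)
open Vale.Agent.P254.H156 (nu r r1 r2)
open Vale.Agent.P254.H876 (Ph ph m v lam)
open Vale.Agent.P254.H721.Cert (Pe cert2 envOK_nil)

/-! ### names -/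

theorem e_r (x : ℝ) : H721.r x = r x := rfl
theorem e_m (x : ℝ) : H721.mm x = nu x := rfl
theorem e_v (x : ℝ) : H721.vv x = SP448.V x := rfl
theorem e_r1 (x : ℝ) : H721.r1 x = r1 x := by
  rw [H721.r1_eq, e_r, e_m]
  unfold H156.r1
  ring
theorem e_r2 (x : ℝ) : H721.r2 x = r2 x := by
  rw [H721.r2_eq, SP448.r2_eq]
  unfold SP448.Qd
  rw [e_r, e_m, e_v]
  ring
theorem e_L (x : ℝ) : H721.L x = H156.lm x := rfl

/-! ### a local barrier and the third order inequality -/

theorem barrier_loc {f f' : ℝ → ℝ} {c : ℝ} (h : ∀ x, HasDerivAt f (f' x) x)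
    (hp : ∀ x, x ≤ c → f x < 0 → 0 ≤ f' x) {l : ℝ} (hl : 0 ≤ l) (h0 : Tendsto f atBot (𝓝 l)) :
    0 ≤ f c := by
  by_contra hneg
  push Not at hneg
  have hcont : Continuous f := continuous_iff_continuousAt.2 fun x => (h x).continuousAt
  -- all points to the left are below f c
  have key : ∀ x ≤ c, f x ≤ f c := by
    intro x hx
    by_contra hgt
    push Not at hgt
    set T : Set ℝ := {y | y ∈ Icc x c ∧ f c < f y} with hT
    have hxT : x ∈ T := ⟨⟨le_rfl, hx⟩, hgt⟩
    have hbdd : BddAbove T := ⟨c, fun y hy => hy.1.2⟩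
    set s := sSup T with hs
    have hsx : x ≤ s := le_csSup hbdd hxT
    have hsc : s ≤ c := csSup_le ⟨x, hxT⟩ fun y hy => hy.1.2
    have h1 : ∀ z, s < z → z ≤ c → f z ≤ f c := by
      intro z hz hzc
      by_contra hcon
      push Not at hcon
      have : z ∈ T := ⟨⟨by linarith, hzc⟩, hcon⟩
      have := le_csSup hbdd this
      linarith
    have h2 : f c ≤ f s := by
      have hcl : s ∈ closure T := csSup_mem_closure ⟨x, hxT⟩ hbdd
      have : T ⊆ {y | f c ≤ f y} := fun y hy => hy.2.le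
      exact (isClosed_le continuous_const hcont).closure_subset_iff.2 this hcl
    have h3 : f s ≤ f c := by
      rcases eq_or_lt_of_le hsc with h | h
      · rw [h]
      · have hcl : s ∈ closure (Ioc s c) := by
          rw [closure_Ioc h.ne]; exact ⟨le_rfl, hsc⟩
        have : Ioc s c ⊆ {y | f y ≤ f c} := fun y hy => h1 y hy.1 hy.2
        exact (isClosed_le hcont continuous_const).closure_subset_iff.2 this hcl
    have hfs : f s = f c := le_antisymm h3 h2
    have hneg_s : f s < 0 := by rw [hfs]; exact hneg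
    obtain ⟨ε, hε, hball⟩ := Metric.continuousAt_iff.1 (hcont.continuousAt (x := s)) (-f s)
      (by linarith)
    have hx_lt_s : x < s := by
      rcases eq_or_lt_of_le hsx with h | h
      · rw [← h] at hfs; rw [hfs] at hgt; exact absurd hgt (lt_irrefl _)
      · exact h
    obtain ⟨y, hyT, hy⟩ := exists_lt_of_lt_csSup ⟨x, hxT⟩ (show max x (s - ε / 2) < sSup T from by
      rw [← hs]; exact max_lt hx_lt_s (by linarith))
    have hys : y ≤ s := le_csSup hbdd hyT
    have hyx : s - ε / 2 < y := lt_of_le_of_lt (le_max_right _ _) hy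
    have hmono : MonotoneOn f (Icc y s) := by
      apply monotoneOn_of_deriv_nonneg (convex_Icc y s) hcont.continuousOn
      · exact fun z _ => (h z).differentiableAt.differentiableWithinAt
      · intro z hz
        rw [interior_Icc] at hz
        rw [(h z).deriv]
        apply hp z (by linarith [hz.2])
        have := hball (x := z) (by
          rw [Real.dist_eq, abs_lt]
          constructor <;> linarith [hz.1, hz.2])
        rw [Real.dist_eq, abs_lt] at this
        linarith [this.2]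
    have := hmono (left_mem_Icc.2 hys) (right_mem_Icc.2 hys) hys
    have := hyT.2
    linarith
  have h4 : l ≤ f c := by
    refine le_of_tendsto h0 ?_
    filter_upwards [eventually_le_atBot c] with x hx
    exact key x hx
  linarith

theorem hasDerivAt_G (c : ℝ) :
    HasDerivAt (fun c => (2 * v c ^ 2 - 3 * v c ^ 3 - (1 - v c) * b c) * Ph c)
      (Ph c / m c * ((1 - v c) * (b c * (2 * v c - 9 * v c ^ 2 + b c) - 3 * v c ^ 3))) c := by
  have hb := SP448.hasDerivAt_b c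
  have hv := SP448.hasDerivAt_v' c
  have h := (((((hv.pow 2).const_mul 2).sub ((hv.pow 3).const_mul 3)).sub
    ((hv.const_sub 1).mul hb))).mul (H876.hasDerivAt_Ph c)
  refine h.congr_deriv ?_
  rw [← H876.lam_mul_Ph]
  simp only [Nat.cast_ofNat, Nat.reduceSub, pow_one, Pi.sub_apply, Pi.pow_apply, Pi.mul_apply,
    Pi.add_apply]
  have h1 := SP448.lam_m c
  have h2 := SP448.m_sq c
  have h3 := (H876.m_pos c).ne'
  have e : lam c = (1 - v c) / m c := by rw [← h1]; field_simp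
  rw [e]
  field_simp
  have h4 : b c = m c ^ 2 - v c := rfl
  rw [h4]
  ring

theorem tendsto_G :
    Tendsto (fun c => (2 * v c ^ 2 - 3 * v c ^ 3 - (1 - v c) * b c) * Ph c) atBot (𝓝 0) := by
  refine H876.tendsto_bdd_mul_Ph (C := 4) fun c hc => ?_
  obtain ⟨h1, h2, h3, h4, h5, h6⟩ := SP448.bdd_facts hc
  have a1 : v c ^ 2 ≤ 1 := by nlinarith
  have a2 : v c ^ 3 ≤ 1 := pow_le_one₀ h3.le h4.le
  have a3 : 0 ≤ v c ^ 3 := by positivity
  have a4 : 0 ≤ (1 - v c) * b c := mul_nonneg (by linarith) h5.le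
  have a5 : (1 - v c) * b c ≤ 1 := by nlinarith
  rw [abs_le]
  constructor <;> nlinarith

/-- `(1 - v) b ≤ 2 v² - 3 v³` for `v ≤ 1/20` -/
theorem B3 {c : ℝ} (hc : v c ≤ 1 / 20) : (1 - v c) * b c ≤ 2 * v c ^ 2 - 3 * v c ^ 3 := by
  have h := barrier_loc (c := c) hasDerivAt_G (fun x hx hneg => by
    have hP := H876.Ph_pos x
    have hv := H876.v_pos x
    have hb := SP448.b_pos x
    have hvc : v x ≤ 1 / 20 := (H876.v_strictMono.monotone hx).trans hc
    have h1 : 2 * v x ^ 2 - 3 * v x ^ 3 - (1 - v x) * b x < 0 := by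
      by_contra hcon
      push Not at hcon
      have := mul_nonneg hcon hP.le
      linarith
    have h2 : v x ^ 2 * (2 - 3 * v x) ≤ b x := by nlinarith [mul_pos hv hb]
    have h3 : 0 < Ph x / m x := div_pos hP (H876.m_pos x)
    refine mul_nonneg h3.le (mul_nonneg (by linarith) ?_)
    have h4 : 0 ≤ v x ^ 2 * (2 - 3 * v x) := mul_nonneg (sq_nonneg _) (by linarith)
    have h5 : v x * (2 - 9 * v x + v x * (2 - 3 * v x)) ≤ 2 * v x - 9 * v x ^ 2 + b x := by
      nlinarith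
    have h6 : 0 ≤ v x * (2 - 9 * v x + v x * (2 - 3 * v x)) := by
      refine mul_nonneg hv.le ?_
      nlinarith [mul_nonneg hv.le (by linarith : (0:ℝ) ≤ 2 - 3 * v x)]
    have h7 : v x ^ 2 * (2 - 3 * v x) * (v x * (2 - 9 * v x + v x * (2 - 3 * v x)))
        ≤ b x * (2 * v x - 9 * v x ^ 2 + b x) := mul_le_mul h2 h5 h6 hb.le
    have h8 : 0 ≤ v x ^ 3 * (1 - 20 * v x + 15 * v x ^ 2 + 9 * v x ^ 3) := by
      refine mul_nonneg (by positivity) ?_
      nlinarith [pow_pos hv 2, pow_pos hv 3]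
    have e : v x ^ 2 * (2 - 3 * v x) * (v x * (2 - 9 * v x + v x * (2 - 3 * v x))) - 3 * v x ^ 3
        = v x ^ 3 * (1 - 20 * v x + 15 * v x ^ 2 + 9 * v x ^ 3) := by ring
    linarith) le_rfl tendsto_G
  by_contra hcon
  push Not at hcon
  have := mul_neg_of_neg_of_pos (by linarith : 2 * v c ^ 2 - 3 * v c ^ 3 - (1 - v c) * b c < 0)
    (H876.Ph_pos c)
  linarith

/-- `nu w' ≥ 3 V³ r² - 2 r''²` for `V ≤ 1/20` -/
theorem nu_w1_ge {x : ℝ} (hx : SP448.V x ≤ 1 / 20) :
    3 * (SP448.V x * SP448.V x * SP448.V x * (r x * r x)) - 2 * (r2 x * r2 x) ≤ nu x * w1 x := by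
  have h := B3 (c := -x) hx
  rw [SP448.b_eq] at h
  have h1 := SP448.nu_mul_w1 x
  have h2 : v (-x) = SP448.V x := rfl
  rw [h2] at h
  have h3 : 0 ≤ (2 * SP448.V x ^ 2 - 3 * SP448.V x ^ 3 - (1 - SP448.V x) * (nu x ^ 2 - SP448.V x))
      * (r x * r x) := mul_nonneg (by linarith) (mul_self_nonneg _)
  rw [h1]
  nlinarith

/-- `nu w' ≥ - 2 r''²` -/
theorem nu_w1_ge' (x : ℝ) : -(2 * (r2 x * r2 x)) ≤ nu x * w1 x := by
  have h1 := SP448.nu_mul_w1 x
  have h2 := SP448.C_pos (-x)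
  rw [SP448.b_eq] at h2
  have h7 : 0 ≤ (2 * SP448.V x ^ 2 - (1 - SP448.V x) * (nu x ^ 2 - SP448.V x)) * r x ^ 2 := by
    refine mul_nonneg ?_ (sq_nonneg _)
    unfold SP448.V at *
    exact h2.le
  rw [h1]
  nlinarith

/-! ### from the polynomial form to the square root form -/

theorem shape {S s A B R m : ℝ} (hS : 0 < S) (hs : 0 < s) (hm : 0 < m)
    (h : 0 ≤ 129 / 250 * (s * (S * S * m)) - (S + s * s) * (2 * S * A + B * R)) :
    A + B * (R / (2 * S)) ≤ 129 / 1000 * √S * m := by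
  have hq := Real.sqrt_pos.2 hS
  have hq2 : √S * √S = S := Real.mul_self_sqrt hS.le
  have h1 : 2 * s * S ≤ √S * (S + s * s) := by
    have : 0 ≤ √S * (√S - s) ^ 2 := mul_nonneg hq.le (sq_nonneg _)
    nlinarith
  have hpos : 0 < 2 * S * (S + s * s) := by positivity
  have h2 : (A + B * (R / (2 * S))) * (2 * S * (S + s * s)) = (S + s * s) * (2 * S * A + B * R) := by
    field_simp
  refine le_of_mul_le_mul_right ?_ hpos
  rw [h2]
  have h3 : 129 / 1000 * (2 * S) * m * (2 * s * S) ≤ 129 / 1000 * (2 * S) * m * (√S * (S + s * s)) :=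
    mul_le_mul_of_nonneg_left h1 (by positivity)
  nlinarith

/-! ### values of the expressions -/

section ev
open Vale.Agent.P254.H721.Cert
variable (ρ : ℕ → ℝ) (x : ℝ)

theorem ev_r1 : eR1.ev ρ x (H721.mm x) (H721.r x) = r1 x := by rw [ev_eR1, e_r1]
theorem ev_r2 : eR2.ev ρ x (H721.mm x) (H721.r x) = r2 x := by rw [ev_eR2, e_r2]
theorem ev_V : eV.ev ρ x (H721.mm x) (H721.r x) = SP448.V x := by rw [ev_eV, e_v]
theorem ev_w : ew.ev ρ x (H721.mm x) (H721.r x) = w x := by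
  simp only [ew, ev_add, ev_mul, H721.Cert.ev_r, ev_V, ev_r1]
  rw [SP448.w_eq, e_r]
  ring
theorem ev_w1 : ew1.ev ρ x (H721.mm x) (H721.r x) = w1 x := by
  simp only [ew1, eB, ev_add, ev_sub, ev_mul, H721.Cert.ev_r, H721.Cert.ev_m, ev_c, ev_V, ev_r1, ev_r2, ev_eL]
  rw [e_r, e_m, e_L]
  unfold SP448.w1
  push_cast
  ring

end ev

/-! ### monotone data -/

theorem V_anti {a b : ℝ} (h : a ≤ b) : SP448.V b ≤ SP448.V a :=
  H876.v_strictMono.monotone (by linarith)

theorem V_left {x : ℝ} (hx : x ≤ -5) : 99 / 100 ≤ SP448.V x := by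
  have h := cert2 (e := H721.Cert.eV - .c 99 100) envOK_nil 64 [(1, 1)] (by decide) (by decide +kernel)
    (x := -5) (by norm_num) (by norm_num [H721.Cert.tot])
  simp only [H721.Cert.ev_sub, H721.Cert.ev_c, ev_V] at h
  push_cast at h
  have := V_anti hx
  linarith

theorem V_right {x : ℝ} (hx : 4 ≤ x) : SP448.V x ≤ 1 / 20 := by
  have h := cert2 (e := .c 1 20 - H721.Cert.eV) envOK_nil 639 [(1, 1)] (by decide) (by decide +kernel)
    (x := 4) (by norm_num) (by norm_num [H721.Cert.tot])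
  simp only [H721.Cert.ev_sub, H721.Cert.ev_c, ev_V] at h
  push_cast at h
  have := V_anti hx
  linarith

/-- `1/6 ≤ r' (-27/16)` -/
theorem r1_a : 1 / 6 ≤ r1 (-(27 / 16)) := by
  have h := cert2 (e := H721.Cert.eR1 - .c 1 6) envOK_nil 276 [(1, 1)] (by decide) (by decide +kernel)
    (x := -(27 / 16)) (by norm_num) (by norm_num [H721.Cert.tot])
  simp only [H721.Cert.ev_sub, H721.Cert.ev_c, ev_r1] at h
  push_cast at h
  linarith

/-- `r' (-7/4) ≤ 1/6` -/
theorem r1_b : r1 (-(7 / 4)) ≤ 1 / 6 := by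
  have h := cert2 (e := .c 1 6 - H721.Cert.eR1) envOK_nil 272 [(1, 1)] (by decide) (by decide +kernel)
    (x := -(7 / 4)) (by norm_num) (by norm_num [H721.Cert.tot])
  simp only [H721.Cert.ev_sub, H721.Cert.ev_c, ev_r1] at h
  push_cast at h
  linarith

theorem r1_c : 33 / 100 ≤ r1 (1 / 2) := by
  have h := cert2 (e := H721.Cert.eR1 - .c 33 100) envOK_nil 416 [(1, 1)] (by decide) (by decide +kernel)
    (x := 1 / 2) (by norm_num) (by norm_num [H721.Cert.tot])
  simp only [H721.Cert.ev_sub, H721.Cert.ev_c, ev_r1] at h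
  push_cast at h
  linarith

/-! ### the left tail -/

theorem left_facts {x : ℝ} (hx : x ≤ -5) : 5 ≤ nu x ∧ r1 x * nu x ^ 2 ≤ 1 ∧ r1 x ≤ 1 / 26 ∧
    r2 x / (2 * r1 x) ≤ 1 / 5 ∧ r2 x ≤ 2 / 5 * r1 x ∧ 93 / 100 ≤ √(r1 x) * nu x := by
  have h1 : 5 ≤ nu x := by
    have := @H721.mm_ge x
    rw [e_m] at this
    linarith
  have hS := H156.r1_pos x
  have hS2 := H156.r1_lt_half x
  have hV := SP448.V_pos x
  have hV1 := SP448.V_lt_one x
  have hV2 := V_left hx
  have k1 := SP.H222.r1_mul_lt x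
  have k2 := SP.H222.r2_mul_lt x
  have k3 := SP.H222.T1 x
  rw [e_r1, e_v, e_m] at k1 k3
  rw [e_r2, e_r1, e_m] at k2
  have h2 : r1 x * nu x ^ 2 ≤ 1 := by nlinarith [mul_pos hS hV]
  have h3 : r1 x ≤ 1 / 26 := by
    have a1 : r1 x * (SP448.V x + 25) ≤ r1 x * (SP448.V x + nu x ^ 2) :=
      mul_le_mul_of_nonneg_left (by nlinarith) hS.le
    nlinarith
  have h5 : r2 x ≤ 2 / 5 * r1 x := by
    have hR := H156.r2_pos x
    nlinarith
  have h4 : r2 x / (2 * r1 x) ≤ 1 / 5 := by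
    rw [div_le_iff₀ (by positivity)]
    linarith
  refine ⟨h1, h2, h3, h4, h5, ?_⟩
  have h6 : (93 / 100) ^ 2 ≤ r1 x * nu x ^ 2 := by nlinarith
  have h7 : √(r1 x) * nu x = √(r1 x * nu x ^ 2) := by
    rw [Real.sqrt_mul hS.le, Real.sqrt_sq (by linarith)]
  rw [h7]
  exact Real.le_sqrt_of_sq_le h6

theorem Up_left {x : ℝ} (hx : x ≤ -5) : Up x := by
  obtain ⟨h1, h2, h3, h4, h5, h6⟩ := left_facts hx
  have hS := H156.r1_pos x
  have hR := H156.r2_pos x
  have hw0 := SP448.w_pos x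
  have hn := H156.nu_pos x
  have hV := SP448.V_pos x
  have hV1 := SP448.V_lt_one x
  have hrpos := H156.r_pos x
  have hr : r x * nu x ≤ 1 := by
    have : r1 x = 1 - r x * nu x := rfl
    linarith
  have hb := SP448.b_pos (-x)
  rw [SP448.b_eq] at hb
  have hw1 : w1 x ≤ 2 / 125 := by
    have k1 := SP448.nu_mul_w1 x
    have k2 : (2 * SP448.V x ^ 2 - (1 - SP448.V x) * (nu x ^ 2 - SP448.V x)) * r x ^ 2
        ≤ 2 * r x ^ 2 := by
      apply mul_le_mul_of_nonneg_right _ (sq_nonneg _)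
      have : 0 ≤ (1 - SP448.V x) * (nu x ^ 2 - SP448.V x) := mul_nonneg (by linarith) hb.le
      nlinarith
    have k3 : nu x * w1 x ≤ 2 * r x ^ 2 := by nlinarith [sq_nonneg (r2 x)]
    have k4 : r x ≤ 1 / 5 := by nlinarith
    have k5 : r x ^ 2 ≤ 1 / 25 := by nlinarith
    by_contra hc
    push Not at hc
    nlinarith
  have hh0 : hh x ≤ 1 / 4 := max_le (by linarith) (by norm_num)
  have hh1 : 0 ≤ hh x := le_max_right _ _
  have hq : 0 ≤ r2 x / (2 * r1 x) := by positivity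
  have hB : 57 / 100 * (1 / 2 - w x) + (1 / 2 - r1 x) * hh x ≤ 41 / 100 := by nlinarith
  have hB2 : (57 / 100 * (1 / 2 - w x) + (1 / 2 - r1 x) * hh x) * (r2 x / (2 * r1 x))
      ≤ 41 / 100 * (1 / 5) :=
    mul_le_mul hB h4 hq (by norm_num)
  have h7 : 0 < r1 x * r2 x := mul_pos hS hR
  unfold Up
  nlinarith

theorem Dn_left {x : ℝ} (hx : x ≤ -5) : Dn x := by
  obtain ⟨h1, h2, h3, h4, h5, h6⟩ := left_facts hx
  have hS := H156.r1_pos x
  have hR := H156.r2_pos x
  have hn := H156.nu_pos x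
  have hq : 0 ≤ r2 x / (2 * r1 x) := by positivity
  have hw := nu_w1_ge' x
  have k0 : r2 x ≤ 1 / 65 := by linarith
  have hw1 : -(1 / 1000) ≤ w1 x := by
    by_contra hc
    push Not at hc
    nlinarith
  have k1 : nu x * r1 x ≤ 1 / 5 := by nlinarith
  have k2 : r1 x * r2 x ≤ 1 / 26 * (1 / 65) := mul_le_mul h3 k0 hR.le (by norm_num)
  have hB : 93 / 100 * (1 / 4 - r1 x ^ 2) + 27 / 250 * (1 / 2 - r1 x) ≤ 3 / 10 := by nlinarith
  have hB2 : (93 / 100 * (1 / 4 - r1 x ^ 2) + 27 / 250 * (1 / 2 - r1 x)) * (r2 x / (2 * r1 x))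
      ≤ 3 / 10 * (1 / 5) := mul_le_mul hB h4 hq (by norm_num)
  unfold Dn
  nlinarith

/-! ### `Up` -/

theorem Up_mid1 {x : ℝ} (h1 : -5 ≤ x) (h2 : x ≤ -(27 / 16)) (hx : r1 x ≤ 1 / 6) : Up x := by
  have h := cert2 (e := eUa .r) envOK_nil 64 [(2, 63), (1, 25), (2, 30), (1, 1)] (by decide)
    (by decide +kernel) (x := x) (by norm_num; linarith) (by norm_num [H721.Cert.tot]; linarith)
  simp only [eUa, eShape, H721.Cert.ev_sub, H721.Cert.ev_add, H721.Cert.ev_mul, H721.Cert.ev_c, H721.Cert.ev_r, H721.Cert.ev_m,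
    ev_w, ev_w1, ev_r1, ev_r2] at h
  rw [e_m, e_r] at h
  have hh0 : hh x = 1 / 4 - 3 / 2 * r1 x := max_eq_left (by linarith)
  unfold Up
  rw [hh0]
  refine shape (s := r x) (H156.r1_pos x) (H156.r_pos x) (H156.nu_pos x) ?_
  refine h.trans_eq ?_
  push_cast
  ring

theorem Up_mid2 {x : ℝ} (h1 : -(7 / 4) ≤ x) (h2 : x ≤ 1 / 2) (hx : 1 / 6 ≤ r1 x) : Up x := by
  have h := cert2 (e := eUb (.c 11 20)) envOK_nil 272 [(2, 2), (4, 35)] (by decide)
    (by decide +kernel) (x := x) (by norm_num; linarith) (by norm_num [H721.Cert.tot]; linarith)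
  simp only [eUb, eShape, H721.Cert.ev_sub, H721.Cert.ev_add, H721.Cert.ev_mul, H721.Cert.ev_c, H721.Cert.ev_r, H721.Cert.ev_m,
    ev_w, ev_w1, ev_r1, ev_r2] at h
  rw [e_m] at h
  have hh0 : hh x = 0 := max_eq_right (by linarith)
  unfold Up
  rw [hh0]
  have h3 := shape (S := r1 x) (s := 11 / 20) (A := 57 / 100 * w1 x - 93 / 50 * (r1 x * r2 x))
    (B := 57 / 100 * (1 / 2 - w x)) (R := r2 x) (m := nu x)
    (H156.r1_pos x) (by norm_num) (H156.nu_pos x) (by
      refine h.trans_eq ?_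
      push_cast
      ring)
  linarith

theorem Up_right {x : ℝ} (hx : 1 / 2 ≤ x) : Up x := by
  have hS1 : 33 / 100 ≤ r1 x := r1_c.trans (r1_mono hx)
  have hS2 := H156.r1_lt_half x
  have hS := H156.r1_pos x
  have hR := H156.r2_pos x
  have hn := H156.nu_pos x
  have hh0 : hh x = 0 := max_eq_right (by linarith)
  have hw : r1 x ≤ w x := by
    unfold SP448.w
    have := mul_pos (H156.r_pos x) hR
    linarith
  have k1 := H958.r2_le_nu x
  have k2 := H958.w1_le_nu x
  have k3 : r2 x / (2 * r1 x) ≤ 47 / 330 * nu x := by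
    rw [div_le_iff₀ (by positivity)]
    nlinarith
  have k4 : (57 / 100 * (1 / 2 - w x)) * (r2 x / (2 * r1 x)) ≤ 57 / 100 * (17 / 100) * (47 / 330 * nu x) :=
    mul_le_mul (by linarith) k3 (by positivity) (by norm_num)
  have k5 : 574 / 1000 ≤ √(r1 x) := Real.le_sqrt_of_sq_le (by norm_num; linarith)
  have k6 : 129 / 1000 * (574 / 1000) * nu x ≤ 129 / 1000 * √(r1 x) * nu x :=
    mul_le_mul_of_nonneg_right (by linarith) hn.le
  have k7 := mul_pos hS hR
  unfold Up
  rw [hh0]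
  linarith

/-- **`Up` on the whole line** -/
theorem up (x : ℝ) : Up x := by
  rcases le_total x (-5) with h | h
  · exact Up_left h
  rcases le_total (1 / 2) x with h3 | h3
  · exact Up_right h3
  rcases le_total (r1 x) (1 / 6) with h4 | h4
  · rcases le_total x (-(27 / 16)) with h5 | h5
    · exact Up_mid1 h h5 h4
    · have e : r1 x = 1 / 6 := le_antisymm h4 (r1_a.trans (r1_mono h5))
      exact Up_mid2 (by linarith) h3 e.ge
  · rcases le_total x (-(7 / 4)) with h5 | h5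
    · have e : r1 x = 1 / 6 := le_antisymm ((r1_mono h5).trans r1_b) h4
      exact Up_mid1 h (by linarith) e.le
    · exact Up_mid2 h5 h3 h4

/-! ### `Dn` -/

theorem Dn_mid {x : ℝ} (h1 : -5 ≤ x) (h2 : x ≤ 4) : Dn x := by
  have h := cert2 (e := eDn (.c 13 20)) envOK_nil 64
    [(1, 63), (2, 55), (4, 51), (2, 50), (1, 99)] (by decide)
    (by decide +kernel) (x := x) (by norm_num; linarith) (by norm_num [H721.Cert.tot]; linarith)
  simp only [eDn, eShape, H721.Cert.ev_sub, H721.Cert.ev_add, H721.Cert.ev_mul, H721.Cert.ev_c, H721.Cert.ev_r, H721.Cert.ev_m,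
    ev_w, ev_w1, ev_r1, ev_r2] at h
  rw [e_m] at h
  have h3 := shape (S := r1 x) (s := 13 / 20)
    (A := 47 / 500 * nu x * r1 x - 57 / 100 * w1 x + 93 / 50 * (r1 x * r2 x))
    (B := 93 / 100 * (1 / 4 - r1 x ^ 2) + 27 / 250 * (1 / 2 - r1 x)) (R := r2 x) (m := nu x)
    (H156.r1_pos x) (by norm_num) (H156.nu_pos x) (by
      refine h.trans_eq ?_
      push_cast
      ring)
  unfold Dn
  linarith

theorem Dn_mid2 {x : ℝ} (h1 : 4 ≤ x) (h2 : x ≤ 9) : Dn x := by
  have h := cert2 (e := eDn3 (.c 13 20)) envOK_nil 640 [(2, 160)] (by decide)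
    (by decide +kernel) (x := x) (by norm_num; linarith) (by norm_num [H721.Cert.tot]; linarith)
  simp only [eDn3, H721.Cert.ev_sub, H721.Cert.ev_add, H721.Cert.ev_mul, H721.Cert.ev_c, H721.Cert.ev_r, H721.Cert.ev_m,
    ev_V, ev_r1, ev_r2] at h
  rw [e_m, e_r] at h
  push_cast at h
  have hw := nu_w1_ge (V_right h1)
  have hS := H156.r1_pos x
  have hn := H156.nu_pos x
  have h3 := shape (S := r1 x) (s := 13 / 20)
    (A := 47 / 500 * nu x * r1 x - 57 / 100 * w1 x + 93 / 50 * (r1 x * r2 x))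
    (B := 93 / 100 * (1 / 4 - r1 x ^ 2) + 27 / 250 * (1 / 2 - r1 x)) (R := r2 x) (m := nu x)
    hS (by norm_num) hn (by
      refine nonneg_of_mul_nonneg_right (b := _) (a := nu x) ?_ hn
      have h4 : 0 ≤ (r1 x + 13 / 20 * (13 / 20)) * (2 * r1 x * (57 / 100)) *
          (nu x * w1 x - (3 * (SP448.V x * SP448.V x * SP448.V x * (r x * r x)) - 2 * (r2 x * r2 x))) :=
        mul_nonneg (by positivity) (by linarith)
      refine (add_nonneg h h4).trans_eq ?_
      ring)
  unfold Dn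
  linarith

theorem Dn_right {x : ℝ} (hx : 9 ≤ x) : Dn x := by
  have hS1 : 479 / 1000 ≤ r1 x := by
    have := H721.r1_right hx
    rwa [e_r1] at this
  have hS2 := H156.r1_lt_half x
  have hS := H156.r1_pos x
  have hR := H156.r2_pos x
  have hn := H156.nu_pos x
  have k1 : r2 x ≤ 2 * nu x * (1 / 2 - r1 x) := by
    have := H721.r2_le_right x
    rwa [e_r2, e_r1, e_m] at this
  have k1' : r2 x ≤ 42 / 1000 * nu x := by nlinarith
  have k2 := nu_w1_ge' x
  have k3 : r2 x / (2 * r1 x) ≤ 439 / 10000 * nu x := by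
    rw [div_le_iff₀ (by positivity)]
    nlinarith
  have k4 : (93 / 100 * (1 / 4 - r1 x ^ 2) + 27 / 250 * (1 / 2 - r1 x)) * (r2 x / (2 * r1 x))
      ≤ 22 / 1000 * (439 / 10000 * nu x) :=
    mul_le_mul (by nlinarith) k3 (by positivity) (by norm_num)
  have k5 : 692 / 1000 ≤ √(r1 x) := Real.le_sqrt_of_sq_le (by norm_num; linarith)
  have k6 : 129 / 1000 * (692 / 1000) * nu x ≤ 129 / 1000 * √(r1 x) * nu x :=
    mul_le_mul_of_nonneg_right (by linarith) hn.le
  have k7 : -(4 / 1000 * nu x) ≤ w1 x := by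
    by_contra hc
    push Not at hc
    have a1 : r2 x * r2 x ≤ (42 / 1000 * nu x) * (42 / 1000 * nu x) :=
      mul_le_mul k1' k1' hR.le (by positivity)
    nlinarith
  have k8 : r1 x * r2 x ≤ 202 / 10000 * nu x := by
    have a1 : r1 x * r2 x ≤ r1 x * (2 * nu x * (1 / 2 - r1 x)) := mul_le_mul_of_nonneg_left k1 hS.le
    have a2 : r1 x * (1 - 2 * r1 x) ≤ 202 / 10000 := by nlinarith
    nlinarith [mul_le_mul_of_nonneg_left a2 hn.le]
  have k9 : nu x * r1 x ≤ 1 / 2 * nu x := by nlinarith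
  unfold Dn
  linarith

/-- **`Dn` on the whole line** -/
theorem dn (x : ℝ) : Dn x := by
  rcases le_total x (-5) with h | h
  · exact Dn_left h
  rcases le_total 9 x with h3 | h3
  · exact Dn_right h3
  rcases le_total x 4 with h4 | h4
  · exact Dn_mid h h4
  · exact Dn_mid2 h4 h3

end Vale.Agent.P254.SP.H807K
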