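import Vale.Agent.P254.SP.H807.KtB
import Vale.Agent.P254.SP.H222.KtC
import Vale.Agent.P254.SP.H151.Fam

/-! P254, line (SP_0): the kernel bound `h4` (helper807). -/

set_option linter.all false

open MeasureTheory Set Filter Topology

namespace Vale.Agent.P254.SP.H807K

open Vale.Agent.P254.H156 (nu r r1 r2)
open Vale.Agent.P254.SP151 (ktot ck)
open Vale.Agent.P254.SP.H958 (Ar)

theorem ktot_mul (P : F1) {x y : ℝ} (h : x ≠ y) :
    KK x y = (y - x) * ktot P (43 / 100) (1 / 2) x y := by
  have h3 : x - y ≠ 0 := sub_ne_zero.2 h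
  unfold ktot ck dd
  simp only [if_neg h]
  unfold SP38.th SP38.th1 KK
  rw [SP448.r_eq P, SP448.r'_eq P, SP448.r''_eq P]
  unfold SP448.th SP448.th1 SP448.w
  field_simp
  ring

/-- **the kernel bound `h4`** -/
theorem h4 (P : F1) (x y : ℝ) :
    ktot P (43 / 100) (1 / 2) x y ^ 2 ≤ 1 / 20 * P.r' x * (wσ P x y - 1) := by
  have hS := H156.r1_pos x
  have hc : 3 * (129 / 1000 * √(r1 x)) ^ 2 ≤ 1 / 20 * r1 x := by
    rw [mul_pow, Real.sq_sqrt hS.le]
    linarith
  have hslack := H958.wσ_ge_one P x y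
  have hL : ∀ s, HasDerivAt (fun s => Real.log (P.L s)) (nu s) s := fun s => by
    have := H958.hasDerivAt_logL P s
    rwa [H958.nuP_nu] at this
  have hm : Antitone nu := fun a b h => nu_anti h
  rw [SP448.r'_eq P]
  by_cases h : x = y
  · subst h
    have e : ktot P (43 / 100) (1 / 2) x x = 0 := by
      unfold ktot ck dd SP38.th1
      simp only [if_true]
      ring
    rw [e]
    have := mul_nonneg hS.le hslack
    nlinarith
  · have key : ktot P (43 / 100) (1 / 2) x y ^ 2 ≤
        3 * (129 / 1000 * √(r1 x)) ^ 2 * (wσ P x y - 1) := by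
      refine H958.transfer P h (ktot_mul P h) ?_
      rcases lt_or_gt_of_ne h with hxy | hxy
      · exact H958.le_slack hL hm (fun s => (H156.nu_pos s).le) (H958.hasDerivAt_t' P)
          (H958.hasDerivAt_JP P) hxy (caseR up dn hL (H958.hasDerivAt_JP P) hxy.le)
      · rw [H958.Sl_comm, add_comm (Real.log (P.L x))]
        exact H958.le_slack hL hm (fun s => (H156.nu_pos s).le) (H958.hasDerivAt_t' P)
          (H958.hasDerivAt_JP P) hxy
          (caseL up dn H222.c5 H222.c6 hm hL (H958.hasDerivAt_JP P) hxy.le)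
    exact key.trans (mul_le_mul_of_nonneg_right hc hslack)

end Vale.Agent.P254.SP.H807K
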